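import Mathlib

namespace Vale.Agent.P121

variable {E : Type*} [NormedAddCommGroup E] [InnerProductSpace ℝ E]

noncomputable def kap (w : E) : E := (‖w‖ ^ 3)⁻¹ • w

theorem norm_kap (w : E) (hw : w ≠ 0) : ‖kap w‖ = (‖w‖ ^ 2)⁻¹ := by
  have h : 0 < ‖w‖ := norm_pos_iff.mpr hw
  unfold kap
  rw [norm_smul, norm_inv, norm_pow, norm_norm]
  field_simp

theorem kap_zero : kap (0 : E) = 0 := by simp [kap]

theorem kap_neg (w : E) : kap (-w) = -kap w := by simp [kap]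

theorem semiconvex (w w' : E) (hw : w ≠ 0) (hw' : w' ≠ 0) :
    ‖w‖⁻¹ - inner ℝ (kap w) (w' - w) - ‖w' - w‖ ^ 2 / (2 * ‖w‖ ^ 3) ≤ ‖w'‖⁻¹ := by
  have ha : 0 < ‖w‖ := norm_pos_iff.mpr hw
  have hb : 0 < ‖w'‖ := norm_pos_iff.mpr hw'
  have h1 : ‖w' - w‖ ^ 2 = ‖w'‖ ^ 2 - 2 * inner ℝ w' w + ‖w‖ ^ 2 := norm_sub_sq_real w' w
  have h2 : inner ℝ (kap w) (w' - w) = (‖w‖ ^ 3)⁻¹ * (inner ℝ w' w - ‖w‖ ^ 2) := by
    unfold kap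
    rw [real_inner_smul_left, inner_sub_right, real_inner_self_eq_norm_sq,
      real_inner_comm]
  rw [h1, h2]
  set a := ‖w‖
  set b := ‖w'‖
  set t := inner ℝ w' w
  have key : b⁻¹ - (a⁻¹ - (a ^ 3)⁻¹ * (t - a ^ 2) - (b ^ 2 - 2 * t + a ^ 2) / (2 * a ^ 3))
      = (b - a) ^ 2 * (b + 2 * a) / (2 * a ^ 3 * b) := by
    field_simp
    ring
  have : 0 ≤ (b - a) ^ 2 * (b + 2 * a) / (2 * a ^ 3 * b) := by positivity
  linarith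

theorem kap_sub_sq (w w' : E) (hw : w ≠ 0) (hw' : w' ≠ 0) :
    ‖kap w - kap w'‖ ^ 2 = ‖w - w'‖ ^ 2 / (‖w‖ ^ 3 * ‖w'‖ ^ 3) +
      (‖w‖ ^ 3 - ‖w'‖ ^ 3) * (‖w‖ - ‖w'‖) / (‖w‖ ^ 4 * ‖w'‖ ^ 4) := by
  have ha : 0 < ‖w‖ := norm_pos_iff.mpr hw
  have hb : 0 < ‖w'‖ := norm_pos_iff.mpr hw'
  rw [norm_sub_sq_real, norm_sub_sq_real, norm_kap w hw, norm_kap w' hw']
  unfold kap
  rw [real_inner_smul_left, real_inner_smul_right]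
  set a := ‖w‖
  set b := ‖w'‖
  set t := inner ℝ w w'
  field_simp
  ring

theorem kap_antilip (w w' : E) (hw : w ≠ 0) (hw' : w' ≠ 0) (M : ℝ) (h : ‖w‖ ≤ M)
    (h' : ‖w'‖ ≤ M) : ‖w - w'‖ ≤ M ^ 3 * ‖kap w - kap w'‖ := by
  have ha : 0 < ‖w‖ := norm_pos_iff.mpr hw
  have hb : 0 < ‖w'‖ := norm_pos_iff.mpr hw'
  have hM : 0 < M := lt_of_lt_of_le ha h
  have hsq : ‖w - w'‖ ^ 2 ≤ (M ^ 3 * ‖kap w - kap w'‖) ^ 2 := by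
    rw [mul_pow, kap_sub_sq w w' hw hw']
    set a := ‖w‖
    set b := ‖w'‖
    have h1 : 0 ≤ (a ^ 3 - b ^ 3) * (a - b) / (a ^ 4 * b ^ 4) := by
      apply div_nonneg _ (by positivity)
      have : (a ^ 3 - b ^ 3) * (a - b) = (a - b) ^ 2 * (a ^ 2 + a * b + b ^ 2) := by ring
      rw [this]; positivity
    have h2 : ‖w - w'‖ ^ 2 ≤ (M ^ 3) ^ 2 * (‖w - w'‖ ^ 2 / (a ^ 3 * b ^ 3)) := by
      rw [← mul_div_assoc, le_div_iff₀ (by positivity)]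
      have h3 : a ^ 3 * b ^ 3 ≤ (M ^ 3) ^ 2 := by
        have : a ^ 3 ≤ M ^ 3 := pow_le_pow_left₀ ha.le h 3
        have h4 : b ^ 3 ≤ M ^ 3 := pow_le_pow_left₀ hb.le h' 3
        calc a ^ 3 * b ^ 3 ≤ M ^ 3 * M ^ 3 := mul_le_mul this h4 (by positivity) (by positivity)
          _ = (M ^ 3) ^ 2 := by ring
      nlinarith [sq_nonneg ‖w - w'‖]
    have h5 : 0 ≤ (M ^ 3) ^ 2 * ((a ^ 3 - b ^ 3) * (a - b) / (a ^ 4 * b ^ 4)) := by positivity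
    rw [mul_add]
    linarith
  exact (abs_le_of_sq_le_sq' hsq (by positivity)).2

theorem kap_lip (w w' : E) (hw : 1 / 2 ≤ ‖w‖) (hw' : 1 / 2 ≤ ‖w'‖) :
    ‖kap w - kap w'‖ ≤ 16 * ‖w - w'‖ := by
  have ha : 0 < ‖w‖ := by linarith
  have hb : 0 < ‖w'‖ := by linarith
  have hw0 : w ≠ 0 := norm_pos_iff.mp ha
  have hw0' : w' ≠ 0 := norm_pos_iff.mp hb
  have hd : (‖w‖ - ‖w'‖) ^ 2 ≤ ‖w - w'‖ ^ 2 := by
    have := abs_norm_sub_norm_le w w'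
    rw [← sq_abs (‖w‖ - ‖w'‖)]
    exact pow_le_pow_left₀ (abs_nonneg _) this 2
  have hsq : ‖kap w - kap w'‖ ^ 2 ≤ (16 * ‖w - w'‖) ^ 2 := by
    rw [mul_pow, kap_sub_sq w w' hw0 hw0']
    set a := ‖w‖
    set b := ‖w'‖
    set D := ‖w - w'‖ ^ 2
    have hia : a⁻¹ ≤ 2 := by
      rw [inv_le_comm₀ ha (by norm_num)]; linarith
    have hib : b⁻¹ ≤ 2 := by
      rw [inv_le_comm₀ hb (by norm_num)]; linarith
    have hD : 0 ≤ D := by positivity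
    have e1 : D / (a ^ 3 * b ^ 3) = D * (a⁻¹ ^ 3 * b⁻¹ ^ 3) := by field_simp
    have e2 : (a ^ 3 - b ^ 3) * (a - b) / (a ^ 4 * b ^ 4)
        = (a - b) ^ 2 * (a⁻¹ ^ 2 * b⁻¹ ^ 4 + a⁻¹ ^ 3 * b⁻¹ ^ 3 + a⁻¹ ^ 4 * b⁻¹ ^ 2) := by
      field_simp
      ring
    have hia0 : 0 ≤ a⁻¹ := by positivity
    have hib0 : 0 ≤ b⁻¹ := by positivity
    have f33 : a⁻¹ ^ 3 * b⁻¹ ^ 3 ≤ 64 := by
      calc a⁻¹ ^ 3 * b⁻¹ ^ 3 ≤ 2 ^ 3 * 2 ^ 3 :=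
            mul_le_mul (pow_le_pow_left₀ hia0 hia 3) (pow_le_pow_left₀ hib0 hib 3)
              (by positivity) (by positivity)
        _ = 64 := by norm_num
    have f24 : a⁻¹ ^ 2 * b⁻¹ ^ 4 ≤ 64 := by
      calc a⁻¹ ^ 2 * b⁻¹ ^ 4 ≤ 2 ^ 2 * 2 ^ 4 :=
            mul_le_mul (pow_le_pow_left₀ hia0 hia 2) (pow_le_pow_left₀ hib0 hib 4)
              (by positivity) (by positivity)
        _ = 64 := by norm_num
    have f42 : a⁻¹ ^ 4 * b⁻¹ ^ 2 ≤ 64 := by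
      calc a⁻¹ ^ 4 * b⁻¹ ^ 2 ≤ 2 ^ 4 * 2 ^ 2 :=
            mul_le_mul (pow_le_pow_left₀ hia0 hia 4) (pow_le_pow_left₀ hib0 hib 2)
              (by positivity) (by positivity)
        _ = 64 := by norm_num
    rw [e1, e2]
    have g1 : D * (a⁻¹ ^ 3 * b⁻¹ ^ 3) ≤ D * 64 := mul_le_mul_of_nonneg_left f33 hD
    have g2 : (a - b) ^ 2 * (a⁻¹ ^ 2 * b⁻¹ ^ 4 + a⁻¹ ^ 3 * b⁻¹ ^ 3 + a⁻¹ ^ 4 * b⁻¹ ^ 2)
        ≤ D * 192 := by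
      apply mul_le_mul hd (by linarith) (by positivity) hD
    linarith
  exact (abs_le_of_sq_le_sq' hsq (by positivity)).2

noncomputable def lam (q : E) : E := (‖q‖ * √‖q‖)⁻¹ • q

theorem norm_lam (q : E) (hq : q ≠ 0) : ‖lam q‖ = (√‖q‖)⁻¹ := by
  have h : 0 < ‖q‖ := norm_pos_iff.mpr hq
  have hs : 0 < √‖q‖ := Real.sqrt_pos.mpr h
  unfold lam
  rw [norm_smul, norm_inv, norm_mul, norm_norm, Real.norm_of_nonneg hs.le]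
  field_simp

theorem lam_ne_zero (q : E) (hq : q ≠ 0) : lam q ≠ 0 := by
  have h : 0 < ‖q‖ := norm_pos_iff.mpr hq
  have hs : 0 < √‖q‖ := Real.sqrt_pos.mpr h
  rw [← norm_pos_iff, norm_lam q hq]
  positivity

theorem kap_lam (q : E) : kap (lam q) = q := by
  by_cases hq : q = 0
  · subst hq; simp [kap, lam]
  have h : 0 < ‖q‖ := norm_pos_iff.mpr hq
  have hs : 0 < √‖q‖ := Real.sqrt_pos.mpr h
  have hss : √‖q‖ ^ 2 = ‖q‖ := Real.sq_sqrt h.le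
  unfold kap
  rw [norm_lam q hq]
  unfold lam
  rw [smul_smul]
  have : ((√‖q‖)⁻¹ ^ 3)⁻¹ * (‖q‖ * √‖q‖)⁻¹ = 1 := by
    have h1 : ‖q‖ * √‖q‖ = √‖q‖ ^ 3 := by
      conv_lhs => rw [← hss]
      rw [Real.sqrt_sq hs.le]
      ring
    rw [h1]
    field_simp
  rw [this, one_smul]

theorem lam_lip (q q' : E) (hq : 1 / 4 ≤ ‖q‖) (hq' : 1 / 4 ≤ ‖q'‖) :
    ‖lam q - lam q'‖ ≤ 8 * ‖q - q'‖ := by
  have hq0 : q ≠ 0 := norm_pos_iff.mp (by linarith)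
  have hq0' : q' ≠ 0 := norm_pos_iff.mp (by linarith)
  have hn : ∀ p : E, 1 / 4 ≤ ‖p‖ → ‖lam p‖ ≤ 2 := by
    intro p hp
    have hp0 : p ≠ 0 := norm_pos_iff.mp (by linarith)
    rw [norm_lam p hp0]
    have : 1 / 2 ≤ √‖p‖ := by
      apply Real.le_sqrt_of_sq_le
      norm_num
      linarith
    rw [inv_le_comm₀ (by linarith) (by norm_num)]
    linarith
  have := kap_antilip (lam q) (lam q') (lam_ne_zero q hq0) (lam_ne_zero q' hq0') 2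
    (hn q hq) (hn q' hq')
  rw [kap_lam, kap_lam] at this
  norm_num at this
  exact this

theorem lam_kap (w : E) (hw : w ≠ 0) : lam (kap w) = w := by
  have ha : 0 < ‖w‖ := norm_pos_iff.mpr hw
  have h1 : ‖kap w‖ = (‖w‖ ^ 2)⁻¹ := norm_kap w hw
  have h2 : √‖kap w‖ = ‖w‖⁻¹ := by
    rw [h1, ← inv_pow, Real.sqrt_sq (by positivity)]
  unfold lam
  rw [h2, h1]
  unfold kap
  rw [smul_smul]
  have : ((‖w‖ ^ 2)⁻¹ * ‖w‖⁻¹)⁻¹ * (‖w‖ ^ 3)⁻¹ = 1 := by field_simp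
  rw [this, one_smul]

end Vale.Agent.P121
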