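import Mathlib
import Vale.Agent.P121.Kappa

namespace Vale.Agent.P121

set_option linter.unusedSectionVars false

open Metric

variable {E : Type*} [NormedAddCommGroup E] [InnerProductSpace ℝ E]

noncomputable def KK : ℝ := 100000

noncomputable def rho : ℝ := 1 / 100000000

noncomputable def qq (x s : E) : E := KK • x + kap s

noncomputable def HH (x s : E) : E := kap s + kap (s + lam (qq x s))

noncomputable def Phi (e x s : E) : E := e - x + KK⁻¹ • (HH x s - (5 / 4 : ℝ) • e)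

structure Dom (e x s : E) : Prop where
  he : ‖e‖ = 1
  hx : ‖x‖ ≤ rho
  hs : ‖s - e‖ ≤ 1 / 4

theorem Dom.kx {e x s : E} (h : Dom e x s) : ‖KK • x‖ ≤ 1 / 1000 := by
  rw [norm_smul]
  have := h.hx
  unfold rho at this
  have h2 : ‖KK‖ = 100000 := by simp [KK]
  rw [h2]
  linarith

theorem Dom.s_lo {e x s : E} (h : Dom e x s) : 3 / 4 ≤ ‖s‖ := by
  have h1 := norm_sub_norm_le e s
  rw [norm_sub_rev, h.he] at h1
  linarith [h.hs]

theorem Dom.s_hi {e x s : E} (h : Dom e x s) : ‖s‖ ≤ 5 / 4 := by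
  have h1 := norm_sub_norm_le s e
  rw [h.he] at h1
  linarith [h.hs]

theorem Dom.s_ne {e x s : E} (h : Dom e x s) : s ≠ 0 := by
  apply norm_pos_iff.mp; linarith [h.s_lo]

theorem Dom.kap_lo {e x s : E} (h : Dom e x s) : 16 / 25 ≤ ‖kap s‖ := by
  rw [norm_kap s h.s_ne]
  have h1 := h.s_lo
  have h2 := h.s_hi
  rw [le_inv_comm₀ (by norm_num) (by positivity)]
  nlinarith

theorem Dom.kap_hi {e x s : E} (h : Dom e x s) : ‖kap s‖ ≤ 16 / 9 := by
  rw [norm_kap s h.s_ne]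
  have h1 := h.s_lo
  have h2 := h.s_hi
  rw [inv_le_comm₀ (by positivity) (by norm_num)]
  nlinarith

theorem Dom.q_lo {e x s : E} (h : Dom e x s) : 1 / 2 ≤ ‖qq x s‖ := by
  unfold qq
  have h1 := norm_sub_norm_le (kap s) (-(KK • x))
  rw [sub_neg_eq_add, norm_neg, add_comm (kap s)] at h1
  linarith [h.kap_lo, h.kx]

theorem Dom.q_hi {e x s : E} (h : Dom e x s) : ‖qq x s‖ ≤ 2 := by
  unfold qq
  have h1 := norm_add_le (KK • x) (kap s)
  linarith [h.kap_hi, h.kx]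

theorem Dom.q_ne {e x s : E} (h : Dom e x s) : qq x s ≠ 0 := by
  apply norm_pos_iff.mp; linarith [h.q_lo]

theorem Dom.lam_hi {e x s : E} (h : Dom e x s) : ‖lam (qq x s)‖ ≤ 2 := by
  rw [norm_lam _ h.q_ne]
  have : 1 / 2 ≤ √‖qq x s‖ := by
    apply Real.le_sqrt_of_sq_le
    norm_num
    linarith [h.q_lo]
  rw [inv_le_comm₀ (by linarith) (by norm_num)]
  linarith

theorem Dom.lam_lo {e x s : E} (h : Dom e x s) : 1 / 2 ≤ ‖lam (qq x s)‖ := by
  rw [norm_lam _ h.q_ne]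
  have h0 : 0 < √‖qq x s‖ := Real.sqrt_pos.mpr (by linarith [h.q_lo])
  have : √‖qq x s‖ ≤ 2 := by
    apply Real.sqrt_le_iff.mpr
    constructor
    · norm_num
    · linarith [h.q_hi]
  rw [le_inv_comm₀ (by norm_num) h0]
  linarith

theorem Dom.inner_nonneg {e x s : E} (h : Dom e x s) : 0 ≤ inner ℝ s (lam (qq x s)) := by
  unfold lam
  rw [real_inner_smul_right]
  apply mul_nonneg (by positivity)
  unfold qq
  rw [inner_add_right]
  have h1 : |inner ℝ s (KK • x)| ≤ ‖s‖ * ‖KK • x‖ := abs_real_inner_le_norm s (KK • x)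
  have h2 : inner ℝ s (kap s) = ‖s‖⁻¹ := by
    unfold kap
    rw [real_inner_smul_right, real_inner_self_eq_norm_sq]
    have : 0 < ‖s‖ := by linarith [h.s_lo]
    field_simp
  rw [h2]
  have h3 : 4 / 5 ≤ ‖s‖⁻¹ := by
    rw [le_inv_comm₀ (by norm_num) (by linarith [h.s_lo])]
    linarith [h.s_hi]
  have h4 : ‖s‖ * ‖KK • x‖ ≤ 5 / 4 * (1 / 1000) :=
    mul_le_mul h.s_hi h.kx (norm_nonneg _) (by norm_num)
  have h5 := neg_abs_le (inner ℝ s (KK • x))
  linarith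

theorem Dom.sum_lo {e x s : E} (h : Dom e x s) : 3 / 4 ≤ ‖s + lam (qq x s)‖ := by
  have h1 : ‖s + lam (qq x s)‖ ^ 2 = ‖s‖ ^ 2 + 2 * inner ℝ s (lam (qq x s)) +
      ‖lam (qq x s)‖ ^ 2 := norm_add_sq_real _ _
  have h2 := h.inner_nonneg
  have h3 : ‖s‖ ^ 2 ≤ ‖s + lam (qq x s)‖ ^ 2 := by
    rw [h1]
    have := sq_nonneg ‖lam (qq x s)‖
    linarith
  have h4 : ‖s‖ ≤ ‖s + lam (qq x s)‖ := (abs_le_of_sq_le_sq' h3 (norm_nonneg _)).2
  linarith [h.s_lo]

theorem Dom.sum_hi {e x s : E} (h : Dom e x s) : ‖s + lam (qq x s)‖ ≤ 4 := by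
  have := norm_add_le s (lam (qq x s))
  linarith [h.s_hi, h.lam_hi]

theorem qq_lip {e x s x' s' : E} (h : Dom e x s) (h' : Dom e x' s') :
    ‖qq x s - qq x' s'‖ ≤ KK * ‖x - x'‖ + 16 * ‖s - s'‖ := by
  unfold qq
  have h1 : KK • x + kap s - (KK • x' + kap s') = KK • (x - x') + (kap s - kap s') := by
    rw [smul_sub]; abel
  rw [h1]
  have h2 := norm_add_le (KK • (x - x')) (kap s - kap s')
  have h3 := kap_lip s s' (by linarith [h.s_lo]) (by linarith [h'.s_lo])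
  have h4 : ‖KK • (x - x')‖ = KK * ‖x - x'‖ := by
    rw [norm_smul]
    congr 1
    simp [KK]
  linarith

theorem lamq_lip {e x s x' s' : E} (h : Dom e x s) (h' : Dom e x' s') :
    ‖lam (qq x s) - lam (qq x' s')‖ ≤ 8 * (KK * ‖x - x'‖ + 16 * ‖s - s'‖) := by
  have h1 := lam_lip (qq x s) (qq x' s') (by linarith [h.q_lo]) (by linarith [h'.q_lo])
  have h2 := qq_lip h h'
  linarith

theorem HH_lip {e x s x' s' : E} (h : Dom e x s) (h' : Dom e x' s') :
    ‖HH x s - HH x' s'‖ ≤ 2080 * ‖s - s'‖ + 128 * KK * ‖x - x'‖ := by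
  unfold HH
  have h1 : kap s + kap (s + lam (qq x s)) - (kap s' + kap (s' + lam (qq x' s')))
      = (kap s - kap s') + (kap (s + lam (qq x s)) - kap (s' + lam (qq x' s'))) := by abel
  rw [h1]
  have h2 := norm_add_le (kap s - kap s') (kap (s + lam (qq x s)) - kap (s' + lam (qq x' s')))
  have h3 := kap_lip s s' (by linarith [h.s_lo]) (by linarith [h'.s_lo])
  have h4 := kap_lip (s + lam (qq x s)) (s' + lam (qq x' s')) (by linarith [h.sum_lo])
    (by linarith [h'.sum_lo])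
  have h5 : s + lam (qq x s) - (s' + lam (qq x' s')) = (s - s') +
    (lam (qq x s) - lam (qq x' s')) := by abel
  rw [h5] at h4
  have h6 := norm_add_le (s - s') (lam (qq x s) - lam (qq x' s'))
  have h7 := lamq_lip h h'
  linarith

theorem Dom.HH_hi {e x s : E} (h : Dom e x s) : ‖HH x s‖ ≤ 32 / 9 := by
  unfold HH
  have h1 := norm_add_le (kap s) (kap (s + lam (qq x s)))
  have h2 : ‖kap (s + lam (qq x s))‖ ≤ 16 / 9 := by
    have h3 := h.sum_lo
    rw [norm_kap _ (norm_pos_iff.mp (by linarith))]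
    rw [inv_le_comm₀ (by positivity) (by norm_num)]
    nlinarith
  linarith [h.kap_hi]

theorem Phi_maps {e x s : E} (h : Dom e x s) : ‖Phi e x s - e‖ ≤ 1 / 4 := by
  unfold Phi
  have h1 : e - x + KK⁻¹ • (HH x s - (5 / 4 : ℝ) • e) - e
      = -x + KK⁻¹ • (HH x s - (5 / 4 : ℝ) • e) := by abel
  rw [h1]
  have h2 := norm_add_le (-x) (KK⁻¹ • (HH x s - (5 / 4 : ℝ) • e))
  have h3 : ‖KK⁻¹ • (HH x s - (5 / 4 : ℝ) • e)‖ = 1 / 100000 * ‖HH x s - (5 / 4 : ℝ) • e‖ := by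
    rw [norm_smul]; simp [KK]
  have h4 := norm_sub_le (HH x s) ((5 / 4 : ℝ) • e)
  have h5 : ‖(5 / 4 : ℝ) • e‖ = 5 / 4 := by rw [norm_smul, h.he]; norm_num
  have h6 := h.HH_hi
  have h7 := h.hx
  unfold rho at h7
  rw [norm_neg] at h2
  rw [h3] at h2
  rw [h5] at h4
  linarith

theorem Phi_contr {e x s s' : E} (h : Dom e x s) (h' : Dom e x s') :
    ‖Phi e x s - Phi e x s'‖ ≤ 1 / 2 * ‖s - s'‖ := by
  unfold Phi
  have h1 : e - x + KK⁻¹ • (HH x s - (5 / 4 : ℝ) • e) -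
      (e - x + KK⁻¹ • (HH x s' - (5 / 4 : ℝ) • e)) = KK⁻¹ • (HH x s - HH x s') := by
    simp only [smul_sub]; abel
  rw [h1, norm_smul]
  have h2 := HH_lip h h'
  have h3 : ‖KK⁻¹‖ = 1 / 100000 := by simp [KK]
  rw [h3]
  rw [sub_self, norm_zero, mul_zero, add_zero] at h2
  have := norm_nonneg (s - s')
  linarith

theorem exists_fixed [CompleteSpace E] (e x : E) (he : ‖e‖ = 1) (hx : ‖x‖ ≤ rho) :
    ∃ s, ‖s - e‖ ≤ 1 / 4 ∧ Phi e x s = s := by
  have hcomp : IsComplete (closedBall e (1 / 4 : ℝ)) := isClosed_closedBall.isComplete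
  have hmaps : Set.MapsTo (Phi e x) (closedBall e (1 / 4 : ℝ)) (closedBall e (1 / 4 : ℝ)) := by
    intro s hs
    rw [mem_closedBall, dist_eq_norm] at hs ⊢
    exact Phi_maps ⟨he, hx, hs⟩
  have hcontr : ContractingWith (1 / 2) (hmaps.restrict (Phi e x) _ _) := by
    refine ⟨by norm_num, ?_⟩
    apply LipschitzWith.of_dist_le_mul
    rintro ⟨s, hs⟩ ⟨s', hs'⟩
    rw [mem_closedBall, dist_eq_norm] at hs hs'
    have := Phi_contr (e := e) (x := x) ⟨he, hx, hs⟩ ⟨he, hx, hs'⟩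
    rw [Subtype.dist_eq, Subtype.dist_eq, dist_eq_norm, dist_eq_norm]
    simpa using this
  obtain ⟨y, hy, hfix, -⟩ := hcontr.exists_fixedPoint' hcomp hmaps
    (x := e) (mem_closedBall_self (by norm_num)) (edist_ne_top _ _)
  rw [mem_closedBall, dist_eq_norm] at hy
  exact ⟨y, hy, hfix⟩

end Vale.Agent.P121
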