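import Mathlib

namespace Vale.Agent.P121

open MeasureTheory
open scoped ENNReal

noncomputable def coulombCost {E : Type*} [PseudoEMetricSpace E] (x₁ x₂ x₃ : E) : ℝ≥0∞ :=
  (edist x₁ x₂)⁻¹ + (edist x₁ x₃)⁻¹ + (edist x₂ x₃)⁻¹

noncomputable def planCost {E : Type*} [PseudoEMetricSpace E] [MeasurableSpace E]
    (π : Measure (E × E × E)) : ℝ≥0∞ :=
  ∫⁻ p, coulombCost p.1 p.2.1 p.2.2 ∂π

def IsCoupling {E : Type*} [MeasurableSpace E] (μ : Measure E) (π : Measure (E × E × E)) : Prop :=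
  π.map (fun p => p.1) = μ ∧ π.map (fun p => p.2.1) = μ ∧ π.map (fun p => p.2.2) = μ

noncomputable def kantorovichValue {E : Type*} [PseudoEMetricSpace E] [MeasurableSpace E]
    (μ : Measure E) : ℝ≥0∞ :=
  ⨅ (π : Measure (E × E × E)) (_ : IsCoupling μ π), planCost π

def IsMongePlan {E : Type*} [MeasurableSpace E] (μ : Measure E) (π : Measure (E × E × E)) : Prop :=
  ∃ T₂ T₃ : E → E, Measurable T₂ ∧ Measurable T₃ ∧ μ.map T₂ = μ ∧ μ.map T₃ = μ ∧
    π = μ.map (fun x => (x, T₂ x, T₃ x))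

end Vale.Agent.P121
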