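import Mathlib
import Vale.Agent.P121.Branch

namespace Vale.Agent.P121

set_option linter.unusedSectionVars false

open Metric

variable {E : Type*} [NormedAddCommGroup E] [InnerProductSpace ℝ E]

structure Sol (e x s : E) : Prop extends Dom e x s where
  fix : Phi e x s = s

theorem KK_pos : 0 < KK := by norm_num [KK]

theorem Sol.eq2 {e x s : E} (h : Sol e x s) :
    KK • (x + s - e) = HH x s - (5 / 4 : ℝ) • e := by
  have h1 := h.fix
  unfold Phi at h1
  have h2 : x + s - e = KK⁻¹ • (HH x s - (5 / 4 : ℝ) • e) := by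
    calc x + s - e = x + (e - x + KK⁻¹ • (HH x s - (5 / 4 : ℝ) • e)) - e := by rw [h1]
      _ = KK⁻¹ • (HH x s - (5 / 4 : ℝ) • e) := by abel
  rw [h2, smul_inv_smul₀ KK_pos.ne']

theorem Sol.crit1 {e x s : E} (_h : Sol e x s) :
    KK • x - kap (x - (x + s)) - kap (x - (x - lam (qq x s))) = 0 := by
  have h1 : x - (x + s) = -s := by abel
  have h2 : x - (x - lam (qq x s)) = lam (qq x s) := by abel
  rw [h1, h2, kap_neg, kap_lam]
  unfold qq
  abel

theorem Sol.crit2 {e x s : E} (h : Sol e x s) :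
    KK • (x + s - e) + (5 / 4 : ℝ) • e + kap (x - (x + s))
      - kap (x + s - (x - lam (qq x s))) = 0 := by
  have h1 : x - (x + s) = -s := by abel
  have h2 : x + s - (x - lam (qq x s)) = s + lam (qq x s) := by abel
  rw [h1, h2, kap_neg, h.eq2]
  unfold HH
  abel

theorem Sol.lip {e x s x' s' : E} (h : Sol e x s) (h' : Sol e x' s') :
    ‖s - s'‖ ≤ 132 * ‖x - x'‖ := by
  have h1 : s - s' = -(x - x') + KK⁻¹ • (HH x s - HH x' s') := by
    conv_lhs => rw [← h.fix, ← h'.fix]
    unfold Phi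
    simp only [smul_sub]
    abel
  have h2 := norm_add_le (-(x - x')) (KK⁻¹ • (HH x s - HH x' s'))
  have h3 : ‖KK⁻¹ • (HH x s - HH x' s')‖ = 1 / 100000 * ‖HH x s - HH x' s'‖ := by
    rw [norm_smul]; simp [KK]
  have h4 := HH_lip h.toDom h'.toDom
  rw [← h1, h3, norm_neg] at h2
  have h5 : KK = 100000 := rfl
  rw [h5] at h4
  have := norm_nonneg (s - s')
  have := norm_nonneg (x - x')
  linarith

theorem Sol.lipF {e x s x' s' : E} (h : Sol e x s) (h' : Sol e x' s') :
    ‖(x + s) - (x' + s')‖ ≤ 133 * ‖x - x'‖ := by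
  have h1 : (x + s) - (x' + s') = (x - x') + (s - s') := by abel
  rw [h1]
  have h2 := norm_add_le (x - x') (s - s')
  linarith [h.lip h']

theorem Sol.lipG {e x s x' s' : E} (h : Sol e x s) (h' : Sol e x' s') :
    ‖(x - lam (qq x s)) - (x' - lam (qq x' s'))‖ ≤ 1000000 * ‖x - x'‖ := by
  have h1 : (x - lam (qq x s)) - (x' - lam (qq x' s'))
      = (x - x') - (lam (qq x s) - lam (qq x' s')) := by abel
  rw [h1]
  have h2 := norm_sub_le (x - x') (lam (qq x s) - lam (qq x' s'))
  have h3 := lamq_lip h.toDom h'.toDom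
  have h4 := h.lip h'
  have h5 : KK = 100000 := rfl
  rw [h5] at h3
  have := norm_nonneg (x - x')
  linarith

theorem Sol.antiG {e x s x' s' : E} (h : Sol e x s) (h' : Sol e x' s') :
    6000 * ‖x - x'‖ ≤ ‖(x - lam (qq x s)) - (x' - lam (qq x' s'))‖ := by
  have h1 : KK • (x - x') = (qq x s - qq x' s') - (kap s - kap s') := by
    unfold qq
    rw [smul_sub]
    abel
  have h2 : ‖KK • (x - x')‖ = 100000 * ‖x - x'‖ := by
    rw [norm_smul]; simp [KK]
  have h3 := norm_sub_le (qq x s - qq x' s') (kap s - kap s')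
  rw [← h1, h2] at h3
  have h4 := kap_lip s s' (by linarith [h.s_lo]) (by linarith [h'.s_lo])
  have h5 := kap_lip (lam (qq x s)) (lam (qq x' s')) h.lam_lo h'.lam_lo
  rw [kap_lam, kap_lam] at h5
  have h6 : lam (qq x s) - lam (qq x' s') = (x - x') -
      ((x - lam (qq x s)) - (x' - lam (qq x' s'))) := by abel
  have h7 := norm_sub_le (x - x') ((x - lam (qq x s)) - (x' - lam (qq x' s')))
  rw [← h6] at h7
  have h8 := h.lip h'
  have := norm_nonneg (x - x')
  linarith

theorem Sol.antiF {e x s x' s' : E} (h : Sol e x s) (h' : Sol e x' s') :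
    ‖x - x'‖ ≤ 2000 * ‖(x + s) - (x' + s')‖ := by
  have hG := h.antiG h'
  have h1 : KK • ((x + s) - (x' + s')) = (kap s - kap s') +
      (kap (s + lam (qq x s)) - kap (s' + lam (qq x' s'))) := by
    have e1 := h.eq2
    have e2 := h'.eq2
    have e3 : (x + s) - (x' + s') = (x + s - e) - (x' + s' - e) := by abel
    rw [e3, smul_sub, e1, e2]
    unfold HH
    abel
  have h2 : ‖KK • ((x + s) - (x' + s'))‖ = 100000 * ‖(x + s) - (x' + s')‖ := by
    rw [norm_smul]; simp [KK]
  have h3 : kap (s + lam (qq x s)) - kap (s' + lam (qq x' s'))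
      = KK • ((x + s) - (x' + s')) - (kap s - kap s') := by
    rw [h1]; abel
  have h4 := norm_sub_le (KK • ((x + s) - (x' + s'))) (kap s - kap s')
  rw [← h3, h2] at h4
  have h5 := kap_lip s s' (by linarith [h.s_lo]) (by linarith [h'.s_lo])
  have hne : s + lam (qq x s) ≠ 0 := norm_pos_iff.mp (by linarith [h.sum_lo])
  have hne' : s' + lam (qq x' s') ≠ 0 := norm_pos_iff.mp (by linarith [h'.sum_lo])
  have h6 := kap_antilip (s + lam (qq x s)) (s' + lam (qq x' s')) hne hne' 4 h.sum_hi h'.sum_hi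
  norm_num at h6
  have h7 : (x - lam (qq x s)) - (x' - lam (qq x' s')) =
      ((x + s) - (x' + s')) - ((s + lam (qq x s)) - (s' + lam (qq x' s'))) := by abel
  have h8 := norm_sub_le ((x + s) - (x' + s')) ((s + lam (qq x s)) - (s' + lam (qq x' s')))
  rw [← h7] at h8
  have h9 : s - s' = ((x + s) - (x' + s')) - (x - x') := by abel
  have h10 := norm_sub_le ((x + s) - (x' + s')) (x - x')
  rw [← h9] at h10
  have := norm_nonneg (x - x')
  have := norm_nonneg ((x + s) - (x' + s'))
  linarith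

theorem Sol.zero {e : E} (he : ‖e‖ = 1) : Sol e 0 e := by
  have hk : kap e = e := by simp [kap, he]
  have hq : qq 0 e = e := by simp [qq, hk]
  have hl : lam e = e := by simp [lam, he]
  have hH : HH 0 e = (5 / 4 : ℝ) • e := by
    unfold HH
    rw [hq, hl, hk]
    unfold kap
    have h1 : ‖e + e‖ = 2 := by
      rw [← two_smul ℝ e, norm_smul, he]; norm_num
    rw [h1, ← two_smul ℝ e, smul_smul]
    nth_rewrite 1 [← one_smul ℝ e]
    rw [← add_smul]
    norm_num
  refine ⟨⟨he, by simp [rho], by simp⟩, ?_⟩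
  unfold Phi
  rw [hH]
  simp

theorem Sol.closeF {e x s : E} (h : Sol e x s) : ‖x + s - e‖ ≤ 1 / 100000 := by
  have h1 := h.lipF (Sol.zero h.he)
  rw [zero_add, sub_zero] at h1
  have h2 := h.hx
  unfold rho at h2
  linarith

theorem Sol.closeG {e x s : E} (h : Sol e x s) : ‖x - lam (qq x s) + e‖ ≤ 1 / 100 := by
  have h1 := h.lipG (Sol.zero h.he)
  have hk : kap e = e := by simp [kap, h.he]
  have hq : qq 0 e = e := by simp [qq, hk]
  have hl : lam e = e := by simp [lam, h.he]
  rw [hq, hl] at h1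
  simp only [zero_sub, sub_neg_eq_add, sub_zero] at h1
  have h2 := h.hx
  unfold rho at h2
  linarith

end Vale.Agent.P121
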