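import Mathlib
import Vale.Agent.P121.Sol

namespace Vale.Agent.P121

set_option linter.unusedSectionVars false

open Metric

variable {E : Type*} [NormedAddCommGroup E] [InnerProductSpace ℝ E]

noncomputable def cR (x y z : E) : ℝ := ‖x - y‖⁻¹ + ‖x - z‖⁻¹ + ‖y - z‖⁻¹

noncomputable def uu (x : E) : ℝ := 2 - KK / 2 * ‖x‖ ^ 2

noncomputable def vv (e y : E) : ℝ :=
  1 / 4 - 5 / 4 * inner ℝ (y - e) e - KK / 2 * ‖y - e‖ ^ 2

theorem contact (e x y z x' y' : E)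
    (h1 : KK • x - kap (x - y) - kap (x - z) = 0)
    (h2 : KK • (y - e) + (5 / 4 : ℝ) • e + kap (x - y) - kap (y - z) = 0)
    (d1 : 1 / 2 ≤ ‖x - y‖) (d2 : 1 / 2 ≤ ‖x - z‖) (d3 : 1 / 2 ≤ ‖y - z‖)
    (n1 : x' ≠ y') (n2 : x' ≠ z) (n3 : y' ≠ z) :
    cR x y z - uu x - vv e y + (KK / 2 - 12) * (‖x' - x‖ ^ 2 + ‖y' - y‖ ^ 2)
      ≤ cR x' y' z - uu x' - vv e y' := by
  set hx := x' - x with hxd
  set hy := y' - y with hyd
  have ex : x' = x + hx := by rw [hxd]; abel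
  have ey : y' = y + hy := by rw [hyd]; abel
  have s1 := semiconvex (x - y) (x' - y') (norm_pos_iff.mp (by linarith)) (sub_ne_zero.mpr n1)
  have s2 := semiconvex (x - z) (x' - z) (norm_pos_iff.mp (by linarith)) (sub_ne_zero.mpr n2)
  have s3 := semiconvex (y - z) (y' - z) (norm_pos_iff.mp (by linarith)) (sub_ne_zero.mpr n3)
  have r1 : x' - y' - (x - y) = hx - hy := by rw [hxd, hyd]; abel
  have r2 : x' - z - (x - z) = hx := by rw [hxd]; abel
  have r3 : y' - z - (y - z) = hy := by rw [hyd]; abel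
  rw [r1] at s1
  rw [r2] at s2
  rw [r3] at s3
  have quad : ∀ (d q : ℝ), 1 / 2 ≤ d → 0 ≤ q → q / (2 * d ^ 3) ≤ 4 * q := by
    intro d q hd hq
    rw [div_le_iff₀ (by positivity)]
    have : (1 / 2 : ℝ) ^ 3 ≤ d ^ 3 := pow_le_pow_left₀ (by norm_num) hd 3
    nlinarith
  have q1 := quad ‖x - y‖ (‖hx - hy‖ ^ 2) d1 (by positivity)
  have q2 := quad ‖x - z‖ (‖hx‖ ^ 2) d2 (by positivity)
  have q3 := quad ‖y - z‖ (‖hy‖ ^ 2) d3 (by positivity)
  have par : ‖hx - hy‖ ^ 2 ≤ 2 * ‖hx‖ ^ 2 + 2 * ‖hy‖ ^ 2 := by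
    have a1 := norm_sub_sq_real hx hy
    have a2 := norm_add_sq_real hx hy
    have a3 := sq_nonneg ‖hx + hy‖
    linarith
  have i1 : inner ℝ (kap (x - y)) (hx - hy) = inner ℝ (kap (x - y)) hx -
      inner ℝ (kap (x - y)) hy := inner_sub_right _ _ _
  have lin1 : KK * inner ℝ x hx - inner ℝ (kap (x - y)) hx - inner ℝ (kap (x - z)) hx = 0 := by
    have := congrArg (fun t => inner ℝ t hx) h1
    simpa only [inner_sub_left, real_inner_smul_left, inner_zero_left] using this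
  have lin2 : KK * inner ℝ (y - e) hy + 5 / 4 * inner ℝ e hy + inner ℝ (kap (x - y)) hy
      - inner ℝ (kap (y - z)) hy = 0 := by
    have := congrArg (fun t => inner ℝ t hy) h2
    simpa only [inner_sub_left, inner_add_left, real_inner_smul_left, inner_zero_left] using this
  have nx : ‖x'‖ ^ 2 = ‖x‖ ^ 2 + 2 * inner ℝ x hx + ‖hx‖ ^ 2 := by
    rw [ex]; exact norm_add_sq_real x hx
  have ny : ‖y' - e‖ ^ 2 = ‖y - e‖ ^ 2 + 2 * inner ℝ (y - e) hy + ‖hy‖ ^ 2 := by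
    have : y' - e = (y - e) + hy := by rw [ey]; abel
    rw [this]; exact norm_add_sq_real (y - e) hy
  have ny2 : inner ℝ (y' - e) e = inner ℝ (y - e) e + inner ℝ e hy := by
    have : y' - e = (y - e) + hy := by rw [ey]; abel
    rw [this, inner_add_left, real_inner_comm e hy]
  unfold cR uu vv
  rw [nx, ny, ny2]
  rw [i1] at s1
  nlinarith [sq_nonneg ‖hx‖, sq_nonneg ‖hy‖]

end Vale.Agent.P121
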