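import Mathlib
import Vale.Agent.P121.Contact

namespace Vale.Agent.P121

set_option linter.unusedSectionVars false

open Metric MeasureTheory Set

variable {E : Type*} [NormedAddCommGroup E] [InnerProductSpace ℝ E]

abbrev A0 (E : Type*) [NormedAddCommGroup E] : Set E := closedBall (0 : E) rho

theorem mem_A0 {x : E} : x ∈ A0 E ↔ ‖x‖ ≤ rho := by
  rw [mem_closedBall, dist_zero_right]

structure Setup [MeasurableSpace E] (e : E) (F G : E → E) : Prop where
  he : ‖e‖ = 1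
  sol : ∀ x ∈ A0 E, ∃ s, Sol e x s ∧ F x = x + s ∧ G x = x - lam (qq x s)
  mF : Measurable F
  mG : Measurable G

theorem exists_setup [MeasurableSpace E] [BorelSpace E] [CompleteSpace E]
    (e : E) (he : ‖e‖ = 1) : ∃ F G : E → E, Setup e F G := by
  classical
  have h : ∀ x : E, ∃ s, x ∈ A0 E → Sol e x s := by
    intro x
    by_cases hx : x ∈ A0 E
    · obtain ⟨s, hs, hf⟩ := exists_fixed e x he (mem_A0.mp hx)
      exact ⟨s, fun _ => ⟨⟨he, mem_A0.mp hx, hs⟩, hf⟩⟩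
    · exact ⟨e, fun h => absurd h hx⟩
  choose S hS using h
  have cF : LipschitzOnWith 133 (fun x => x + S x) (A0 E) := by
    apply LipschitzOnWith.of_dist_le_mul
    intro x hx y hy
    rw [dist_eq_norm, dist_eq_norm]
    exact (hS x hx).lipF (hS y hy)
  have cG : LipschitzOnWith 1000000 (fun x => x - lam (qq x (S x))) (A0 E) := by
    apply LipschitzOnWith.of_dist_le_mul
    intro x hx y hy
    rw [dist_eq_norm, dist_eq_norm]
    exact (hS x hx).lipG (hS y hy)
  refine ⟨(A0 E).piecewise (fun x => x + S x) (fun _ => e),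
    (A0 E).piecewise (fun x => x - lam (qq x (S x))) (fun _ => e), he, ?_, ?_, ?_⟩
  · intro x hx
    refine ⟨S x, hS x hx, ?_, ?_⟩
    · exact Set.piecewise_eq_of_mem _ _ _ hx
    · exact Set.piecewise_eq_of_mem _ _ _ hx
  · exact ContinuousOn.measurable_piecewise cF.continuousOn continuousOn_const
      measurableSet_closedBall
  · exact ContinuousOn.measurable_piecewise cG.continuousOn continuousOn_const
      measurableSet_closedBall

namespace Setup

variable [MeasurableSpace E] {e : E} {F G : E → E}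

theorem lipF (h : Setup e F G) {x y : E} (hx : x ∈ A0 E) (hy : y ∈ A0 E) :
    ‖F x - F y‖ ≤ 133 * ‖x - y‖ := by
  obtain ⟨s, hs, h1, h2⟩ := h.sol x hx
  obtain ⟨t, ht, h3, h4⟩ := h.sol y hy
  rw [h1, h3]
  exact hs.lipF ht

theorem lipG (h : Setup e F G) {x y : E} (hx : x ∈ A0 E) (hy : y ∈ A0 E) :
    ‖G x - G y‖ ≤ 1000000 * ‖x - y‖ := by
  obtain ⟨s, hs, h1, h2⟩ := h.sol x hx
  obtain ⟨t, ht, h3, h4⟩ := h.sol y hy
  rw [h2, h4]
  exact hs.lipG ht

theorem antiF (h : Setup e F G) {x y : E} (hx : x ∈ A0 E) (hy : y ∈ A0 E) :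
    ‖x - y‖ ≤ 2000 * ‖F x - F y‖ := by
  obtain ⟨s, hs, h1, h2⟩ := h.sol x hx
  obtain ⟨t, ht, h3, h4⟩ := h.sol y hy
  rw [h1, h3]
  exact hs.antiF ht

theorem antiG (h : Setup e F G) {x y : E} (hx : x ∈ A0 E) (hy : y ∈ A0 E) :
    ‖x - y‖ ≤ 2000 * ‖G x - G y‖ := by
  obtain ⟨s, hs, h1, h2⟩ := h.sol x hx
  obtain ⟨t, ht, h3, h4⟩ := h.sol y hy
  rw [h2, h4]
  have := hs.antiG ht
  have := norm_nonneg (x - y)
  linarith

theorem closeF (h : Setup e F G) {x : E} (hx : x ∈ A0 E) : ‖F x - e‖ ≤ 1 / 100000 := by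
  obtain ⟨s, hs, h1, h2⟩ := h.sol x hx
  rw [h1]
  exact hs.closeF

theorem closeG (h : Setup e F G) {x : E} (hx : x ∈ A0 E) : ‖G x + e‖ ≤ 1 / 100 := by
  obtain ⟨s, hs, h1, h2⟩ := h.sol x hx
  rw [h2]
  exact hs.closeG

theorem injF (h : Setup e F G) : InjOn F (A0 E) := by
  intro x hx y hy hxy
  have := h.antiF hx hy
  rw [hxy, sub_self, norm_zero, mul_zero] at this
  exact sub_eq_zero.mp (norm_le_zero_iff.mp this)

theorem injG (h : Setup e F G) : InjOn G (A0 E) := by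
  intro x hx y hy hxy
  have := h.antiG hx hy
  rw [hxy, sub_self, norm_zero, mul_zero] at this
  exact sub_eq_zero.mp (norm_le_zero_iff.mp this)

theorem contF (h : Setup e F G) : ContinuousOn F (A0 E) := by
  have : LipschitzOnWith 133 F (A0 E) := by
    apply LipschitzOnWith.of_dist_le_mul
    intro x hx y hy
    rw [dist_eq_norm, dist_eq_norm]
    exact h.lipF hx hy
  exact this.continuousOn

theorem contG (h : Setup e F G) : ContinuousOn G (A0 E) := by
  have : LipschitzOnWith 1000000 G (A0 E) := by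
    apply LipschitzOnWith.of_dist_le_mul
    intro x hx y hy
    rw [dist_eq_norm, dist_eq_norm]
    exact h.lipG hx hy
  exact this.continuousOn

theorem d12 (h : Setup e F G) {x : E} (hx : x ∈ A0 E) : 1 / 2 ≤ ‖x - F x‖ := by
  obtain ⟨s, hs, h1, h2⟩ := h.sol x hx
  have : x - F x = -s := by rw [h1]; abel
  rw [this, norm_neg]
  linarith [hs.s_lo]

theorem d13 (h : Setup e F G) {x : E} (hx : x ∈ A0 E) : 1 / 2 ≤ ‖x - G x‖ := by
  obtain ⟨s, hs, h1, h2⟩ := h.sol x hx
  have : x - G x = lam (qq x s) := by rw [h2]; abel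
  rw [this]
  exact hs.lam_lo

theorem d23 (h : Setup e F G) {x : E} (hx : x ∈ A0 E) : 1 / 2 ≤ ‖F x - G x‖ := by
  obtain ⟨s, hs, h1, h2⟩ := h.sol x hx
  have : F x - G x = s + lam (qq x s) := by rw [h1, h2]; abel
  rw [this]
  linarith [hs.sum_lo]

theorem contact (h : Setup e F G) {x : E} (hx : x ∈ A0 E) {x' y' : E}
    (n1 : x' ≠ y') (n2 : x' ≠ G x) (n3 : y' ≠ G x) :
    cR x (F x) (G x) - uu x - vv e (F x) + (KK / 2 - 12) * (‖x' - x‖ ^ 2 + ‖y' - F x‖ ^ 2)
      ≤ cR x' y' (G x) - uu x' - vv e y' := by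
  apply P121.contact e x (F x) (G x) x' y' _ _ (h.d12 hx) (h.d13 hx) (h.d23 hx) n1 n2 n3
  · obtain ⟨s, hs, h1, h2⟩ := h.sol x hx
    rw [h1, h2]
    exact hs.crit1
  · obtain ⟨s, hs, h1, h2⟩ := h.sol x hx
    rw [h1, h2]
    exact hs.crit2

end Setup

end Vale.Agent.P121
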