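import Mathlib
import Vale.Agent.P121.Setup

namespace Vale.Agent.P121

set_option linter.unusedSectionVars false

open Metric MeasureTheory Set

variable {E : Type*} [NormedAddCommGroup E] [InnerProductSpace ℝ E]

def Um : Fin 5 → ℕ := ![200, 28, 28, 28, 28]

def Dm : Fin 5 → Fin 5 → ℕ :=
  ![![5000, 98, 98, 98, 98],
    ![98, 5000, 49, 69, 69],
    ![98, 49, 5000, 69, 69],
    ![98, 69, 69, 5000, 49],
    ![98, 69, 69, 49, 5000]]

def IsPerm (a b c i j k : Fin 5) : Prop :=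
  (i = a ∧ j = b ∧ k = c) ∨ (i = a ∧ j = c ∧ k = b) ∨ (i = b ∧ j = a ∧ k = c) ∨
  (i = b ∧ j = c ∧ k = a) ∨ (i = c ∧ j = a ∧ k = b) ∨ (i = c ∧ j = b ∧ k = a)

instance (a b c i j k : Fin 5) : Decidable (IsPerm a b c i j k) := by
  unfold IsPerm; infer_instance

theorem table : ∀ i j k : Fin 5, Um i + Um j + Um k < Dm i j + Dm i k + Dm j k ∨
    IsPerm 0 1 2 i j k ∨ IsPerm 0 3 4 i j k := by
  decide

def ctr (e : E) (R : E ≃ₗᵢ[ℝ] E) : Fin 5 → E := ![0, e, -e, R e, -(R e)]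

def Cl (F G : E → E) (R : E ≃ₗᵢ[ℝ] E) : Fin 5 → Set E :=
  ![A0 E, F '' A0 E, G '' A0 E, R '' (F '' A0 E), R '' (G '' A0 E)]

section

variable [MeasurableSpace E] {e : E} {F G : E → E} {R : E ≃ₗᵢ[ℝ] E}

theorem near_ctr (h : Setup e F G) {i : Fin 5} {p : E} (hp : p ∈ Cl F G R i) :
    ‖p - ctr e R i‖ ≤ 1 / 100 := by
  fin_cases i
  · have : ‖p‖ ≤ rho := mem_A0.mp hp
    unfold rho at this
    simp only [ctr, Fin.zero_eta, Fin.isValue, Matrix.cons_val_zero, sub_zero]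
    linarith
  · obtain ⟨x, hx, rfl⟩ := hp
    have := h.closeF hx
    simp only [ctr, Fin.mk_one, Fin.isValue, Matrix.cons_val_one, Matrix.cons_val_zero]
    linarith
  · obtain ⟨x, hx, rfl⟩ := hp
    have := h.closeG hx
    simpa [ctr] using this
  · obtain ⟨y, ⟨x, hx, rfl⟩, rfl⟩ := hp
    have := h.closeF hx
    simp only [ctr, Fin.reduceFinMk, Matrix.cons_val]
    rw [← map_sub, R.norm_map]
    linarith
  · obtain ⟨y, ⟨x, hx, rfl⟩, rfl⟩ := hp
    have := h.closeG hx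
    simp only [ctr, Fin.reduceFinMk, Matrix.cons_val]
    rw [sub_neg_eq_add, ← map_add, R.norm_map]
    exact this

theorem norm_Re (he : ‖e‖ = 1) : ‖R e‖ = 1 := by rw [R.norm_map, he]

theorem dist_sub_sq (he : ‖e‖ = 1) (hR : inner ℝ (R e) e = 0) : ‖e - R e‖ ^ 2 = 2 := by
  rw [norm_sub_sq_real, he, norm_Re he, real_inner_comm, hR]; norm_num

theorem dist_add_sq (he : ‖e‖ = 1) (hR : inner ℝ (R e) e = 0) : ‖e + R e‖ ^ 2 = 2 := by
  rw [norm_add_sq_real, he, norm_Re he, real_inner_comm, hR]; norm_num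

theorem dist_sub_le (he : ‖e‖ = 1) (hR : inner ℝ (R e) e = 0) :
    ‖e - R e‖ ≤ 14143 / 10000 ∧ 1 ≤ ‖e - R e‖ := by
  have h := dist_sub_sq he hR
  have := norm_nonneg (e - R e)
  constructor <;> nlinarith

theorem dist_add_le (he : ‖e‖ = 1) (hR : inner ℝ (R e) e = 0) :
    ‖e + R e‖ ≤ 14143 / 10000 ∧ 1 ≤ ‖e + R e‖ := by
  have h := dist_add_sq he hR
  have := norm_nonneg (e + R e)
  constructor <;> nlinarith

theorem ctr_dist (he : ‖e‖ = 1) (hR : inner ℝ (R e) e = 0) (i j : Fin 5) :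
    ‖ctr e R i - ctr e R j‖ ≤ 100 / (Dm i j : ℝ) - 1 / 50 := by
  have h1 := (dist_sub_le he hR).1
  have h2 := (dist_add_le he hR).1
  have h1' : ‖R e - e‖ ≤ 14143 / 10000 := by rw [norm_sub_rev]; exact h1
  have h2' : ‖R e + e‖ ≤ 14143 / 10000 := by rw [add_comm]; exact h2
  have h3 : ‖-e - R e‖ ≤ 14143 / 10000 := by
    rw [← norm_neg]; simpa [add_comm] using h2
  have h4 : ‖-(R e) - e‖ ≤ 14143 / 10000 := by
    rw [← norm_neg]; simpa [add_comm] using h2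
  have h5 : ‖-e + R e‖ ≤ 14143 / 10000 := by
    rw [neg_add_eq_sub]; exact h1'
  have h6 : ‖-(R e) + e‖ ≤ 14143 / 10000 := by
    rw [neg_add_eq_sub]; exact h1
  have hRe := norm_Re (R := R) he
  have t1 : ‖e + e‖ ≤ 2 := by
    have := norm_add_le e e; rw [he] at this; linarith
  have t2 : ‖-e - e‖ ≤ 2 := by
    have := norm_sub_le (-e) e; rw [norm_neg, he] at this; linarith
  have t3 : ‖R e + R e‖ ≤ 2 := by
    have := norm_add_le (R e) (R e); rw [hRe] at this; linarith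
  have t4 : ‖-(R e) - R e‖ ≤ 2 := by
    have := norm_sub_le (-(R e)) (R e); rw [norm_neg, hRe] at this; linarith
  fin_cases i <;> fin_cases j <;> simp [ctr, Dm, he] <;> norm_num <;> linarith

theorem ctr_sep (he : ‖e‖ = 1) (hR : inner ℝ (R e) e = 0) (i j : Fin 5) (hij : i ≠ j) :
    1 ≤ ‖ctr e R i - ctr e R j‖ := by
  have h1 := (dist_sub_le he hR).2
  have h2 := (dist_add_le he hR).2
  have h1' : 1 ≤ ‖R e - e‖ := by rw [norm_sub_rev]; exact h1
  have h2' : 1 ≤ ‖R e + e‖ := by rw [add_comm]; exact h2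
  have h3 : 1 ≤ ‖-e - R e‖ := by
    rw [← norm_neg]; simpa [add_comm] using h2
  have h4 : 1 ≤ ‖-(R e) - e‖ := by
    rw [← norm_neg]; simpa [add_comm] using h2
  have h5 : 1 ≤ ‖-e + R e‖ := by
    rw [neg_add_eq_sub]; exact h1'
  have h6 : 1 ≤ ‖-(R e) + e‖ := by
    rw [neg_add_eq_sub]; exact h1
  have hRe := norm_Re (R := R) he
  have t1 : 1 ≤ ‖e + e‖ := by
    rw [← two_smul ℝ e, norm_smul, he]; norm_num
  have t2 : 1 ≤ ‖-e - e‖ := by
    rw [← norm_neg]; simpa using t1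
  have t3 : 1 ≤ ‖R e + R e‖ := by
    rw [← two_smul ℝ (R e), norm_smul, hRe]; norm_num
  have t4 : 1 ≤ ‖-(R e) - R e‖ := by
    rw [← norm_neg]; simpa using t3
  fin_cases i <;> fin_cases j <;> first | exact absurd rfl hij | (simp [ctr, he] <;> linarith)

theorem cl_disjoint (h : Setup e F G) (hR : inner ℝ (R e) e = 0) {i j : Fin 5} {p : E}
    (hi : p ∈ Cl F G R i) (hj : p ∈ Cl F G R j) : i = j := by
  by_contra hij
  have h1 := near_ctr h hi
  have h2 := near_ctr h hj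
  have h3 := ctr_sep h.he hR i j hij
  have h4 : ctr e R i - ctr e R j = (p - ctr e R j) - (p - ctr e R i) := by abel
  have h5 := norm_sub_le (p - ctr e R j) (p - ctr e R i)
  rw [← h4] at h5
  linarith

theorem inv_dist_ge (h : Setup e F G) (hR : inner ℝ (R e) e = 0) {i j : Fin 5} {p q : E}
    (hp : p ∈ Cl F G R i) (hq : q ∈ Cl F G R j) (hpq : p ≠ q) :
    (Dm i j : ℝ) / 100 ≤ ‖p - q‖⁻¹ := by
  have h1 := near_ctr h hp
  have h2 := near_ctr h hq
  have h3 := ctr_dist h.he hR i j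
  have h4 : p - q = (p - ctr e R i) - (q - ctr e R j) + (ctr e R i - ctr e R j) := by abel
  have h5 := norm_add_le ((p - ctr e R i) - (q - ctr e R j)) (ctr e R i - ctr e R j)
  have h6 := norm_sub_le (p - ctr e R i) (q - ctr e R j)
  rw [← h4] at h5
  have h7 : ‖p - q‖ ≤ 100 / (Dm i j : ℝ) := by linarith
  have h8 : 0 < ‖p - q‖ := norm_pos_iff.mpr (sub_ne_zero.mpr hpq)
  have h9 : 0 < (Dm i j : ℝ) := by
    have : 0 < 100 / (Dm i j : ℝ) := lt_of_lt_of_le h8 h7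
    by_contra hcon
    push Not at hcon
    have : 100 / (Dm i j : ℝ) ≤ 0 := div_nonpos_of_nonneg_of_nonpos (by norm_num) hcon
    linarith
  rw [le_inv_comm₀ (by positivity) h8, inv_div]
  exact h7

end

end Vale.Agent.P121
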