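import Mathlib
import Vale.Agent.P121.Cluster

namespace Vale.Agent.P121

set_option linter.unusedSectionVars false

open Metric MeasureTheory Set

variable {E : Type*} [NormedAddCommGroup E] [InnerProductSpace ℝ E]

noncomputable def gi (G : E → E) : E → E := Function.invFunOn G (A0 E)

noncomputable def ww0 (e : E) (F G : E → E) (p : E) : ℝ :=
  cR (gi G p) (F (gi G p)) p - uu (gi G p) - vv e (F (gi G p))

noncomputable def I1 (e : E) (F : E → E) : E → ℝ := (F '' A0 E).indicator (vv e)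

noncomputable def I2 (e : E) (F G : E → E) : E → ℝ := (G '' A0 E).indicator (ww0 e F G)

noncomputable def UU (e : E) (F G : E → E) (R : E ≃ₗᵢ[ℝ] E) (p : E) : ℝ :=
  (A0 E).indicator uu p + I1 e F p + I2 e F G p + I1 e F (R.symm p) + I2 e F G (R.symm p)

section

variable [MeasurableSpace E] {e : E} {F G : E → E} {R : E ≃ₗᵢ[ℝ] E}

theorem gi_G (h : Setup e F G) {x : E} (hx : x ∈ A0 E) : gi G (G x) = x :=
  h.injG.leftInvOn_invFunOn hx

theorem zero_mem_A0 : (0 : E) ∈ A0 E := by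
  rw [mem_A0, norm_zero]; norm_num [rho]

theorem mem_RF {p : E} : R.symm p ∈ F '' A0 E ↔ p ∈ R '' (F '' A0 E) := by
  constructor
  · intro hp
    exact ⟨R.symm p, hp, by simp⟩
  · rintro ⟨y, hy, rfl⟩
    simpa using hy

theorem ind_zero (h : Setup e F G) (hR : inner ℝ (R e) e = 0) {i j : Fin 5} {p : E}
    (hp : p ∈ Cl F G R i) (hij : i ≠ j) (f : E → ℝ) : (Cl F G R j).indicator f p = 0 := by
  apply Set.indicator_of_notMem
  intro hj
  exact hij (cl_disjoint h hR hp hj)

theorem I1R (p : E) : I1 e F (R.symm p) =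
    (Cl F G R 3).indicator (fun q => vv e (R.symm q)) p := by
  unfold I1
  by_cases hp : p ∈ R '' (F '' A0 E)
  · have h2 : R.symm p ∈ F '' A0 E := mem_RF.mpr hp
    have h3 : p ∈ Cl F G R 3 := hp
    rw [Set.indicator_of_mem h2, Set.indicator_of_mem h3]
  · have h2 : R.symm p ∉ F '' A0 E := fun hh => hp (mem_RF.mp hh)
    have h3 : p ∉ Cl F G R 3 := hp
    rw [Set.indicator_of_notMem h2, Set.indicator_of_notMem h3]

theorem I2R (p : E) : I2 e F G (R.symm p) =
    (Cl F G R 4).indicator (fun q => ww0 e F G (R.symm q)) p := by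
  unfold I2
  by_cases hp : p ∈ R '' (G '' A0 E)
  · have h2 : R.symm p ∈ G '' A0 E := mem_RF.mpr hp
    have h3 : p ∈ Cl F G R 4 := hp
    rw [Set.indicator_of_mem h2, Set.indicator_of_mem h3]
  · have h2 : R.symm p ∉ G '' A0 E := fun hh => hp (mem_RF.mp hh)
    have h3 : p ∉ Cl F G R 4 := hp
    rw [Set.indicator_of_notMem h2, Set.indicator_of_notMem h3]

theorem UU_eq (p : E) : UU e F G R p = (Cl F G R 0).indicator uu p +
    (Cl F G R 1).indicator (vv e) p + (Cl F G R 2).indicator (ww0 e F G) p +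
    (Cl F G R 3).indicator (fun q => vv e (R.symm q)) p +
    (Cl F G R 4).indicator (fun q => ww0 e F G (R.symm q)) p := by
  unfold UU
  rw [I1R (G := G), I2R]
  rfl

theorem UU_0 (h : Setup e F G) (hR : inner ℝ (R e) e = 0) {p : E} (hp : p ∈ A0 E) :
    UU e F G R p = uu p := by
  have h0 : p ∈ Cl F G R 0 := hp
  rw [UU_eq, Set.indicator_of_mem h0, ind_zero h hR h0 (by decide), ind_zero h hR h0 (by decide),
    ind_zero h hR h0 (by decide), ind_zero h hR h0 (by decide)]
  ring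

theorem UU_1 (h : Setup e F G) (hR : inner ℝ (R e) e = 0) {x : E} (hx : x ∈ A0 E) :
    UU e F G R (F x) = vv e (F x) := by
  have h0 : F x ∈ Cl F G R 1 := ⟨x, hx, rfl⟩
  rw [UU_eq, Set.indicator_of_mem h0, ind_zero h hR h0 (by decide), ind_zero h hR h0 (by decide),
    ind_zero h hR h0 (by decide), ind_zero h hR h0 (by decide)]
  ring

theorem UU_2 (h : Setup e F G) (hR : inner ℝ (R e) e = 0) {x : E} (hx : x ∈ A0 E) :
    UU e F G R (G x) = cR x (F x) (G x) - uu x - vv e (F x) := by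
  have h0 : G x ∈ Cl F G R 2 := ⟨x, hx, rfl⟩
  rw [UU_eq, Set.indicator_of_mem h0, ind_zero h hR h0 (by decide), ind_zero h hR h0 (by decide),
    ind_zero h hR h0 (by decide), ind_zero h hR h0 (by decide)]
  unfold ww0
  rw [gi_G h hx]
  ring

theorem UU_3 (h : Setup e F G) (hR : inner ℝ (R e) e = 0) {x : E} (hx : x ∈ A0 E) :
    UU e F G R (R (F x)) = vv e (F x) := by
  have h0 : R (F x) ∈ Cl F G R 3 := ⟨F x, ⟨x, hx, rfl⟩, rfl⟩
  rw [UU_eq, Set.indicator_of_mem h0, ind_zero h hR h0 (by decide), ind_zero h hR h0 (by decide),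
    ind_zero h hR h0 (by decide), ind_zero h hR h0 (by decide)]
  simp

theorem UU_4 (h : Setup e F G) (hR : inner ℝ (R e) e = 0) {x : E} (hx : x ∈ A0 E) :
    UU e F G R (R (G x)) = cR x (F x) (G x) - uu x - vv e (F x) := by
  have h0 : R (G x) ∈ Cl F G R 4 := ⟨G x, ⟨x, hx, rfl⟩, rfl⟩
  rw [UU_eq, Set.indicator_of_mem h0, ind_zero h hR h0 (by decide), ind_zero h hR h0 (by decide),
    ind_zero h hR h0 (by decide), ind_zero h hR h0 (by decide)]
  unfold ww0
  simp only [LinearIsometryEquiv.symm_apply_apply, zero_add]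
  rw [gi_G h hx]

theorem uu_bd {x : E} (hx : x ∈ A0 E) : 1999 / 1000 ≤ uu x ∧ uu x ≤ 2 := by
  have h1 := mem_A0.mp hx
  have h0 := norm_nonneg x
  unfold uu
  unfold rho at h1
  have h2 : KK = 100000 := rfl
  rw [h2]
  constructor
  · nlinarith
  · nlinarith

theorem vv_bd (h : Setup e F G) {x : E} (hx : x ∈ A0 E) :
    249 / 1000 ≤ vv e (F x) ∧ vv e (F x) ≤ 251 / 1000 := by
  have h1 := h.closeF hx
  have h0 := norm_nonneg (F x - e)
  have h3 := abs_real_inner_le_norm (F x - e) e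
  rw [h.he, mul_one] at h3
  have h4 := abs_le.mp h3
  unfold vv
  have h2 : KK = 100000 := rfl
  rw [h2]
  constructor
  · nlinarith
  · nlinarith

theorem cR_bd (h : Setup e F G) {x : E} (hx : x ∈ A0 E) :
    246 / 100 ≤ cR x (F x) (G x) ∧ cR x (F x) (G x) ≤ 2527 / 1000 := by
  have h1 := mem_A0.mp hx
  unfold rho at h1
  have h2 := h.closeF hx
  have h3 := h.closeG hx
  have he := h.he
  have a1 : ‖x - F x‖ ≤ 101 / 100 := by
    have e1 : x - F x = x - ((F x - e) + e) := by abel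
    have := norm_sub_le x ((F x - e) + e)
    have := norm_add_le (F x - e) e
    rw [e1]; linarith
  have a2 : 999 / 1000 ≤ ‖x - F x‖ := by
    have e1 : e = (x - (x - F x)) - (F x - e) := by abel
    have t1 := norm_sub_le (x - (x - F x)) (F x - e)
    have t2 := norm_sub_le x (x - F x)
    rw [← e1] at t1
    linarith
  have b1 : ‖x - G x‖ ≤ 102 / 100 := by
    have e1 : x - G x = x - ((G x + e) - e) := by abel
    have := norm_sub_le x ((G x + e) - e)
    have := norm_sub_le (G x + e) e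
    rw [e1]; linarith
  have b2 : 98 / 100 ≤ ‖x - G x‖ := by
    have e1 : e = (G x + e) - (x - (x - G x)) := by abel
    have t1 := norm_sub_le (G x + e) (x - (x - G x))
    have t2 := norm_sub_le x (x - G x)
    rw [← e1] at t1
    linarith
  have c1 : ‖F x - G x‖ ≤ 202 / 100 := by
    have e1 : F x - G x = ((F x - e) - (G x + e)) + (e + e) := by abel
    have t1 := norm_add_le ((F x - e) - (G x + e)) (e + e)
    have t2 := norm_sub_le (F x - e) (G x + e)
    have t3 := norm_add_le e e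
    rw [e1]; linarith
  have c2 : 198 / 100 ≤ ‖F x - G x‖ := by
    have e1 : e + e = (F x - G x) - ((F x - e) - (G x + e)) := by abel
    have t1 := norm_sub_le (F x - G x) ((F x - e) - (G x + e))
    have t2 := norm_sub_le (F x - e) (G x + e)
    have t3 : ‖e + e‖ = 2 := by rw [← two_smul ℝ e, norm_smul, he]; norm_num
    rw [← e1, t3] at t1
    linarith
  have i1 : (101 / 100 : ℝ)⁻¹ ≤ ‖x - F x‖⁻¹ := inv_anti₀ (by linarith) a1
  have i2 : ‖x - F x‖⁻¹ ≤ (999 / 1000 : ℝ)⁻¹ := inv_anti₀ (by norm_num) a2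
  have j1 : (102 / 100 : ℝ)⁻¹ ≤ ‖x - G x‖⁻¹ := inv_anti₀ (by linarith) b1
  have j2 : ‖x - G x‖⁻¹ ≤ (98 / 100 : ℝ)⁻¹ := inv_anti₀ (by norm_num) b2
  have k1 : (202 / 100 : ℝ)⁻¹ ≤ ‖F x - G x‖⁻¹ := inv_anti₀ (by linarith) c1
  have k2 : ‖F x - G x‖⁻¹ ≤ (198 / 100 : ℝ)⁻¹ := inv_anti₀ (by norm_num) c2
  unfold cR
  norm_num at i1 i2 j1 j2 k1 k2
  constructor <;> linarith

theorem UU_bd (h : Setup e F G) (hR : inner ℝ (R e) e = 0) {i : Fin 5} {p : E}
    (hp : p ∈ Cl F G R i) : 0 ≤ UU e F G R p ∧ UU e F G R p ≤ (Um i : ℝ) / 100 := by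
  fin_cases i
  · have hp' : p ∈ A0 E := hp
    rw [UU_0 h hR hp']
    have := uu_bd hp'
    constructor
    · linarith
    · simp [Um]; linarith
  · obtain ⟨x, hx, rfl⟩ := hp
    rw [UU_1 h hR hx]
    have := vv_bd h hx
    constructor
    · linarith
    · simp [Um]; linarith
  · obtain ⟨x, hx, rfl⟩ := hp
    rw [UU_2 h hR hx]
    have := vv_bd h hx
    have := uu_bd hx
    have := cR_bd h hx
    constructor
    · linarith
    · simp [Um]; linarith
  · obtain ⟨y, ⟨x, hx, rfl⟩, rfl⟩ := hp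
    rw [UU_3 h hR hx]
    have := vv_bd h hx
    constructor
    · linarith
    · simp [Um]; linarith
  · obtain ⟨y, ⟨x, hx, rfl⟩, rfl⟩ := hp
    rw [UU_4 h hR hx]
    have := vv_bd h hx
    have := uu_bd hx
    have := cR_bd h hx
    constructor
    · linarith
    · simp [Um]; linarith

end

end Vale.Agent.P121
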