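import Mathlib
import Vale.Agent.P121.Potential
import Vale.Agent.P121.Defs

namespace Vale.Agent.P121

set_option linter.unusedSectionVars false

open Metric MeasureTheory Set
open scoped ENNReal

variable {E : Type*} [NormedAddCommGroup E] [InnerProductSpace ℝ E]

theorem cost_top_of_eq {x y z : E} (h : x = y ∨ x = z ∨ y = z) : coulombCost x y z = ⊤ := by
  unfold coulombCost
  rcases h with h | h | h <;> subst h <;> simp

theorem cost_real {x y z : E} (h1 : x ≠ y) (h2 : x ≠ z) (h3 : y ≠ z) :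
    coulombCost x y z = ENNReal.ofReal (cR x y z) := by
  have key : ∀ a b : E, a ≠ b → (edist a b)⁻¹ = ENNReal.ofReal (‖a - b‖⁻¹) := by
    intro a b hab
    have : 0 < ‖a - b‖ := norm_pos_iff.mpr (sub_ne_zero.mpr hab)
    rw [edist_dist, dist_eq_norm, ENNReal.ofReal_inv_of_pos this]
  unfold coulombCost cR
  rw [key x y h1, key x z h2, key y z h3, ENNReal.ofReal_add (by positivity) (by positivity),
    ENNReal.ofReal_add (by positivity) (by positivity)]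

theorem cR_swap12 (x y z : E) : cR x y z = cR y x z := by
  unfold cR
  rw [norm_sub_rev x y]; ring

theorem cR_swap23 (x y z : E) : cR x y z = cR x z y := by
  unfold cR
  rw [norm_sub_rev y z]; ring

section

variable [MeasurableSpace E] {e : E} {F G : E → E} {R : E ≃ₗᵢ[ℝ] E}

theorem cl_ne (h : Setup e F G) (hR : inner ℝ (R e) e = 0) {i j : Fin 5} {p q : E}
    (hp : p ∈ Cl F G R i) (hq : q ∈ Cl F G R j) (hij : i ≠ j) : p ≠ q := by
  intro hpq
  subst hpq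
  exact hij (cl_disjoint h hR hp hq)

theorem ineq012 (h : Setup e F G) (hR : inner ℝ (R e) e = 0) {s y z : E}
    (hs : s ∈ Cl F G R 0) (hy : y ∈ Cl F G R 1) (hz : z ∈ Cl F G R 2) :
    UU e F G R s + UU e F G R y + UU e F G R z ≤ cR s y z ∧
    (cR s y z ≤ UU e F G R s + UU e F G R y + UU e F G R z → y = F s ∧ z = G s) := by
  have n1 := cl_ne h hR hs hy (by decide)
  have n2 := cl_ne h hR hs hz (by decide)
  have n3 := cl_ne h hR hy hz (by decide)
  have hs0 : s ∈ A0 E := hs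
  obtain ⟨t, ht, rfl⟩ := hy
  obtain ⟨x, hx, rfl⟩ := hz
  have hc := h.contact hx n1 n2 n3
  rw [UU_0 h hR hs0, UU_1 h hR ht, UU_2 h hR hx]
  have hk : 0 < KK / 2 - 12 := by norm_num [KK]
  have hq : 0 ≤ ‖s - x‖ ^ 2 + ‖F t - F x‖ ^ 2 := by positivity
  have hm := mul_nonneg hk.le hq
  refine ⟨by linarith, ?_⟩
  intro hle
  have h0 : ‖s - x‖ ^ 2 + ‖F t - F x‖ ^ 2 ≤ 0 := by
    by_contra hcon
    push Not at hcon
    have := mul_pos hk hcon
    linarith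
  have h1 : ‖s - x‖ ^ 2 = 0 := by
    have a1 := sq_nonneg ‖s - x‖
    have a2 := sq_nonneg ‖F t - F x‖
    linarith
  have h2 : s = x := sub_eq_zero.mp (norm_eq_zero.mp (pow_eq_zero_iff (by norm_num) |>.mp h1))
  have h3 : ‖F t - F x‖ ^ 2 = 0 := by
    have a1 := sq_nonneg ‖s - x‖
    have a2 := sq_nonneg ‖F t - F x‖
    linarith
  have h4 : F t = F x := sub_eq_zero.mp (norm_eq_zero.mp (pow_eq_zero_iff (by norm_num) |>.mp h3))
  rw [h2, h4]
  exact ⟨rfl, rfl⟩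

theorem A0_R {x : E} (hx : x ∈ A0 E) : R.symm x ∈ A0 E := by
  rw [mem_A0] at *
  rw [R.symm.norm_map]
  exact hx

theorem ineq034 (h : Setup e F G) (hR : inner ℝ (R e) e = 0) {s y z : E}
    (hs : s ∈ Cl F G R 0) (hy : y ∈ Cl F G R 3) (hz : z ∈ Cl F G R 4) :
    UU e F G R s + UU e F G R y + UU e F G R z ≤ cR s y z := by
  have hs0 : s ∈ A0 E := hs
  obtain ⟨y', ⟨t, ht, rfl⟩, rfl⟩ := hy
  obtain ⟨z', ⟨x, hx, rfl⟩, rfl⟩ := hz
  have hs1 : R.symm s ∈ Cl F G R 0 := A0_R hs0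
  have hy1 : F t ∈ Cl F G R 1 := ⟨t, ht, rfl⟩
  have hz1 : G x ∈ Cl F G R 2 := ⟨x, hx, rfl⟩
  have key := (ineq012 h hR hs1 hy1 hz1).1
  rw [UU_0 h hR (A0_R hs0), UU_1 h hR ht, UU_2 h hR hx] at key
  rw [UU_0 h hR hs0, UU_3 h hR ht, UU_4 h hR hx]
  have e1 : uu (R.symm s) = uu s := by unfold uu; rw [R.symm.norm_map]
  have e2 : cR (R.symm s) (F t) (G x) = cR s (R (F t)) (R (G x)) := by
    unfold cR
    have a1 : s - R (F t) = R (R.symm s - F t) := by rw [map_sub]; simp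
    have a2 : s - R (G x) = R (R.symm s - G x) := by rw [map_sub]; simp
    have a3 : R (F t) - R (G x) = R (F t - G x) := by rw [map_sub]
    rw [a1, a2, a3, R.norm_map, R.norm_map, R.norm_map]
  rw [e1, e2] at key
  exact key

def Conf (F G : E → E) (p q r : E) : Prop :=
  ∃ s ∈ A0 E, (p = s ∧ q = F s ∧ r = G s) ∨ (p = s ∧ q = G s ∧ r = F s) ∨
    (p = F s ∧ q = s ∧ r = G s) ∨ (p = F s ∧ q = G s ∧ r = s) ∨
    (p = G s ∧ q = s ∧ r = F s) ∨ (p = G s ∧ q = F s ∧ r = s)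

theorem classify_real (h : Setup e F G) (hR : inner ℝ (R e) e = 0) {i j k : Fin 5} {p q r : E}
    (hp : p ∈ Cl F G R i) (hq : q ∈ Cl F G R j) (hr : r ∈ Cl F G R k)
    (n1 : p ≠ q) (n2 : p ≠ r) (n3 : q ≠ r) :
    UU e F G R p + UU e F G R q + UU e F G R r ≤ cR p q r ∧
    (cR p q r ≤ UU e F G R p + UU e F G R q + UU e F G R r →
      Conf F G p q r ∨ IsPerm 0 3 4 i j k) := by
  rcases table i j k with ht | ht | ht
  · have d1 := inv_dist_ge h hR hp hq n1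
    have d2 := inv_dist_ge h hR hp hr n2
    have d3 := inv_dist_ge h hR hq hr n3
    have u1 := (UU_bd h hR hp).2
    have u2 := (UU_bd h hR hq).2
    have u3 := (UU_bd h hR hr).2
    have ht' : (Um i : ℝ) + Um j + Um k < Dm i j + Dm i k + Dm j k := by exact_mod_cast ht
    have : UU e F G R p + UU e F G R q + UU e F G R r < cR p q r := by
      unfold cR
      linarith
    exact ⟨this.le, fun hh => absurd hh (not_le.mpr this)⟩
  · rcases ht with ⟨rfl, rfl, rfl⟩ | ⟨rfl, rfl, rfl⟩ | ⟨rfl, rfl, rfl⟩ | ⟨rfl, rfl, rfl⟩ |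
      ⟨rfl, rfl, rfl⟩ | ⟨rfl, rfl, rfl⟩
    · obtain ⟨h1, h2⟩ := ineq012 h hR hp hq hr
      refine ⟨h1, fun hh => Or.inl ⟨p, hp, ?_⟩⟩
      obtain ⟨e1, e2⟩ := h2 hh
      exact Or.inl ⟨rfl, e1, e2⟩
    · obtain ⟨h1, h2⟩ := ineq012 h hR hp hr hq
      rw [cR_swap23]
      refine ⟨by linarith, fun hh => Or.inl ⟨p, hp, ?_⟩⟩
      obtain ⟨e1, e2⟩ := h2 (by linarith)
      exact Or.inr (Or.inl ⟨rfl, e2, e1⟩)
    · obtain ⟨h1, h2⟩ := ineq012 h hR hq hp hr
      rw [cR_swap12]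
      refine ⟨by linarith, fun hh => Or.inl ⟨q, hq, ?_⟩⟩
      obtain ⟨e1, e2⟩ := h2 (by linarith)
      exact Or.inr (Or.inr (Or.inl ⟨e1, rfl, e2⟩))
    · obtain ⟨h1, h2⟩ := ineq012 h hR hr hp hq
      rw [cR_swap23, cR_swap12]
      refine ⟨by linarith, fun hh => Or.inl ⟨r, hr, ?_⟩⟩
      obtain ⟨e1, e2⟩ := h2 (by linarith)
      exact Or.inr (Or.inr (Or.inr (Or.inl ⟨e1, e2, rfl⟩)))
    · obtain ⟨h1, h2⟩ := ineq012 h hR hq hr hp
      rw [cR_swap12, cR_swap23]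
      refine ⟨by linarith, fun hh => Or.inl ⟨q, hq, ?_⟩⟩
      obtain ⟨e1, e2⟩ := h2 (by linarith)
      exact Or.inr (Or.inr (Or.inr (Or.inr (Or.inl ⟨e2, rfl, e1⟩))))
    · obtain ⟨h1, h2⟩ := ineq012 h hR hr hq hp
      rw [cR_swap12, cR_swap23, cR_swap12]
      refine ⟨by linarith, fun hh => Or.inl ⟨r, hr, ?_⟩⟩
      obtain ⟨e1, e2⟩ := h2 (by linarith)
      exact Or.inr (Or.inr (Or.inr (Or.inr (Or.inr ⟨e2, e1, rfl⟩))))
  · refine ⟨?_, fun _ => Or.inr ht⟩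
    rcases ht with ⟨rfl, rfl, rfl⟩ | ⟨rfl, rfl, rfl⟩ | ⟨rfl, rfl, rfl⟩ | ⟨rfl, rfl, rfl⟩ |
      ⟨rfl, rfl, rfl⟩ | ⟨rfl, rfl, rfl⟩
    · exact ineq034 h hR hp hq hr
    · rw [cR_swap23]; linarith [ineq034 h hR hp hr hq]
    · rw [cR_swap12]; linarith [ineq034 h hR hq hp hr]
    · rw [cR_swap23, cR_swap12]; linarith [ineq034 h hR hr hp hq]
    · rw [cR_swap12, cR_swap23]; linarith [ineq034 h hR hq hr hp]
    · rw [cR_swap12, cR_swap23, cR_swap12]; linarith [ineq034 h hR hr hq hp]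

noncomputable def Ue (e : E) (F G : E → E) (R : E ≃ₗᵢ[ℝ] E) (p : E) : ℝ≥0∞ :=
  ENNReal.ofReal (UU e F G R p)

theorem classify (h : Setup e F G) (hR : inner ℝ (R e) e = 0) {i j k : Fin 5} {p q r : E}
    (hp : p ∈ Cl F G R i) (hq : q ∈ Cl F G R j) (hr : r ∈ Cl F G R k) :
    Ue e F G R p + Ue e F G R q + Ue e F G R r ≤ coulombCost p q r ∧
    (coulombCost p q r ≤ Ue e F G R p + Ue e F G R q + Ue e F G R r →
      Conf F G p q r ∨ IsPerm 0 3 4 i j k) := by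
  have u1 := (UU_bd h hR hp).1
  have u2 := (UU_bd h hR hq).1
  have u3 := (UU_bd h hR hr).1
  have hs : Ue e F G R p + Ue e F G R q + Ue e F G R r =
      ENNReal.ofReal (UU e F G R p + UU e F G R q + UU e F G R r) := by
    unfold Ue
    rw [ENNReal.ofReal_add (by positivity) u3, ENNReal.ofReal_add u1 u2]
  rw [hs]
  by_cases hd : p = q ∨ p = r ∨ q = r
  · rw [cost_top_of_eq hd]
    refine ⟨le_top, fun hh => ?_⟩
    exact absurd (top_le_iff.mp hh) ENNReal.ofReal_ne_top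
  · push Not at hd
    obtain ⟨n1, n2, n3⟩ := hd
    obtain ⟨c1, c2⟩ := classify_real h hR hp hq hr n1 n2 n3
    rw [cost_real n1 n2 n3]
    refine ⟨ENNReal.ofReal_le_ofReal c1, fun hh => c2 ?_⟩
    exact (ENNReal.ofReal_le_ofReal_iff (by positivity)).mp hh

theorem cost_eq (h : Setup e F G) (hR : inner ℝ (R e) e = 0) {x : E} (hx : x ∈ A0 E) :
    coulombCost x (F x) (G x) = Ue e F G R x + Ue e F G R (F x) + Ue e F G R (G x) := by
  have hp : x ∈ Cl F G R 0 := hx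
  have hq : F x ∈ Cl F G R 1 := ⟨x, hx, rfl⟩
  have hr : G x ∈ Cl F G R 2 := ⟨x, hx, rfl⟩
  have u1 := (UU_bd h hR hp).1
  have u2 := (UU_bd h hR hq).1
  have u3 := (UU_bd h hR hr).1
  rw [cost_real (cl_ne h hR hp hq (by decide)) (cl_ne h hR hp hr (by decide))
    (cl_ne h hR hq hr (by decide))]
  unfold Ue
  rw [← ENNReal.ofReal_add u1 u2, ← ENNReal.ofReal_add (by positivity) u3]
  congr 1
  rw [UU_0 h hR hx, UU_1 h hR hx, UU_2 h hR hx]
  ring

theorem cost_R (x y z : E) : coulombCost (R x) (R y) (R z) = coulombCost x y z := by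
  unfold coulombCost
  rw [R.edist_map, R.edist_map, R.edist_map]

theorem UeR_F (h : Setup e F G) (hR : inner ℝ (R e) e = 0) {x : E} (hx : x ∈ A0 E) :
    Ue e F G R (R (F x)) = Ue e F G R (F x) := by
  unfold Ue
  rw [UU_3 h hR hx, UU_1 h hR hx]

theorem UeR_G (h : Setup e F G) (hR : inner ℝ (R e) e = 0) {x : E} (hx : x ∈ A0 E) :
    Ue e F G R (R (G x)) = Ue e F G R (G x) := by
  unfold Ue
  rw [UU_4 h hR hx, UU_2 h hR hx]

theorem UeR_0 (h : Setup e F G) (hR : inner ℝ (R e) e = 0) {x : E} (hx : x ∈ A0 E) :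
    Ue e F G R (R x) = Ue e F G R x := by
  unfold Ue
  have hx' : R x ∈ A0 E := by
    rw [mem_A0] at *
    rw [R.norm_map]; exact hx
  rw [UU_0 h hR hx', UU_0 h hR hx]
  unfold uu
  rw [R.norm_map]

end

end Vale.Agent.P121
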