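import Mathlib
import Vale.Agent.P121.Classify

namespace Vale.Agent.P121

set_option linter.unusedSectionVars false

open Metric MeasureTheory Set
open scoped ENNReal

variable {E : Type*} [NormedAddCommGroup E] [InnerProductSpace ℝ E] [FiniteDimensional ℝ E]
  [MeasurableSpace E] [BorelSpace E]

theorem isCompact_A0 : IsCompact (A0 E) := by
  have : ProperSpace E := FiniteDimensional.proper_real E
  exact isCompact_closedBall 0 rho

theorem meas_A0 : MeasurableSet (A0 E) := measurableSet_closedBall

variable {e : E} {F G : E → E} {R : E ≃ₗᵢ[ℝ] E}

theorem compF (h : Setup e F G) : IsCompact (F '' A0 E) :=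
  isCompact_A0.image_of_continuousOn h.contF

theorem compG (h : Setup e F G) : IsCompact (G '' A0 E) :=
  isCompact_A0.image_of_continuousOn h.contG

theorem compCl (h : Setup e F G) (i : Fin 5) : IsCompact (Cl F G R i) := by
  fin_cases i
  · exact isCompact_A0
  · exact compF h
  · exact compG h
  · exact (compF h).image R.continuous
  · exact (compG h).image R.continuous

theorem measCl (h : Setup e F G) (i : Fin 5) : MeasurableSet (Cl F G R i) :=
  (compCl h i).isClosed.measurableSet

theorem cont_gi (h : Setup e F G) : ContinuousOn (gi G) (G '' A0 E) := by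
  have : LipschitzOnWith 2000 (gi G) (G '' A0 E) := by
    apply LipschitzOnWith.of_dist_le_mul
    rintro _ ⟨x, hx, rfl⟩ _ ⟨y, hy, rfl⟩
    rw [gi_G h hx, gi_G h hy, dist_eq_norm, dist_eq_norm]
    exact h.antiG hx hy
  exact this.continuousOn

theorem continuous_uu : Continuous (uu : E → ℝ) := by
  unfold uu
  fun_prop

theorem continuous_vv (e : E) : Continuous (vv e) := by
  unfold vv
  fun_prop

theorem cont_ww (h : Setup e F G) : ContinuousOn (ww0 e F G) (G '' A0 E) := by
  have hg := cont_gi h
  have hmaps : MapsTo (gi G) (G '' A0 E) (A0 E) := by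
    rintro _ ⟨x, hx, rfl⟩
    rw [gi_G h hx]; exact hx
  have hFg : ContinuousOn (fun p => F (gi G p)) (G '' A0 E) := h.contF.comp hg hmaps
  unfold ww0 cR
  apply ContinuousOn.sub
  · apply ContinuousOn.sub
    · apply ContinuousOn.add
      · apply ContinuousOn.add
        · apply ContinuousOn.inv₀
          · exact (hg.sub hFg).norm
          · rintro _ ⟨x, hx, rfl⟩
            rw [gi_G h hx]
            linarith [h.d12 hx]
        · apply ContinuousOn.inv₀
          · exact (hg.sub continuousOn_id).norm
          · rintro _ ⟨x, hx, rfl⟩
            rw [gi_G h hx]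
            linarith [h.d13 hx]
      · apply ContinuousOn.inv₀
        · exact (hFg.sub continuousOn_id).norm
        · rintro _ ⟨x, hx, rfl⟩
          rw [gi_G h hx]
          linarith [h.d23 hx]
    · exact continuous_uu.comp_continuousOn hg
  · exact (continuous_vv e).comp_continuousOn hFg

theorem meas_I2 (h : Setup e F G) : Measurable (I2 e F G) := by
  classical
  unfold I2
  rw [← Set.piecewise_eq_indicator]
  exact ContinuousOn.measurable_piecewise (cont_ww h) continuousOn_const
    (compG h).isClosed.measurableSet

theorem meas_I1 (h : Setup e F G) : Measurable (I1 e F) := by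
  unfold I1
  exact (continuous_vv e).measurable.indicator (compF h).isClosed.measurableSet

theorem meas_UU (h : Setup e F G) : Measurable (UU e F G R) := by
  unfold UU
  have h1 := meas_I1 h
  have h2 := meas_I2 h
  have h3 : Measurable (fun p : E => R.symm p) := R.symm.continuous.measurable
  exact ((((continuous_uu.measurable.indicator meas_A0).add h1).add h2).add
    (h1.comp h3)).add (h2.comp h3)

theorem meas_Ue (h : Setup e F G) : Measurable (Ue e F G R) :=
  (meas_UU h).ennreal_ofReal

theorem meas_cost : Measurable (fun p : E × E × E => coulombCost p.1 p.2.1 p.2.2) := by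
  unfold coulombCost
  have h1 : Measurable (fun p : E × E × E => p.1) := measurable_fst
  have h2 : Measurable (fun p : E × E × E => p.2.1) := measurable_fst.comp measurable_snd
  have h3 : Measurable (fun p : E × E × E => p.2.2) := measurable_snd.comp measurable_snd
  exact ((h1.edist h2).inv.add (h1.edist h3).inv).add (h2.edist h3).inv

end Vale.Agent.P121
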