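import Mathlib
import Vale.Agent.P121.Meas

namespace Vale.Agent.P121

set_option linter.unusedSectionVars false

open Metric MeasureTheory Set
open scoped ENNReal

variable {E : Type*} [NormedAddCommGroup E] [InnerProductSpace ℝ E] [FiniteDimensional ℝ E]
  [MeasurableSpace E] [BorelSpace E]

variable {e : E} {F G : E → E} {R : E ≃ₗᵢ[ℝ] E}

structure Base (ν : Measure E) (R : E ≃ₗᵢ[ℝ] E) : Prop where
  supp : ν (A0 E)ᶜ = 0
  inv : ν.map (fun x => R x) = ν
  mass : ν univ = 6⁻¹

noncomputable def mu (ν : Measure E) (F G : E → E) (R : E ≃ₗᵢ[ℝ] E) : Measure E :=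
  (ν + ν.map F + ν.map G) +
    (ν.map (fun x => R x) + ν.map (fun x => R (F x)) + ν.map (fun x => R (G x)))

noncomputable def pi3 (ν : Measure E) (f g k : E → E) : Measure (E × E × E) :=
  ν.map (fun x => (f x, g x, k x))

noncomputable def pi0 (ν : Measure E) (F G : E → E) (R : E ≃ₗᵢ[ℝ] E) : Measure (E × E × E) :=
  (pi3 ν (fun x => x) F G + pi3 ν F G (fun x => x) + pi3 ν G (fun x => x) F) +
  (pi3 ν (fun x => R x) (fun x => R (F x)) (fun x => R (G x)) +
    pi3 ν (fun x => R (F x)) (fun x => R (G x)) (fun x => R x) +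
    pi3 ν (fun x => R (G x)) (fun x => R x) (fun x => R (F x)))

theorem meas_R : Measurable (fun x : E => R x) := R.continuous.measurable

theorem pi3_1 (ν : Measure E) {f g k : E → E} (hf : Measurable f) (hg : Measurable g)
    (hk : Measurable k) : (pi3 ν f g k).map (fun p => p.1) = ν.map f := by
  unfold pi3
  rw [Measure.map_map measurable_fst (hf.prodMk (hg.prodMk hk))]
  rfl

theorem pi3_2 (ν : Measure E) {f g k : E → E} (hf : Measurable f) (hg : Measurable g)
    (hk : Measurable k) : (pi3 ν f g k).map (fun p => p.2.1) = ν.map g := by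
  unfold pi3
  have p2 : Measurable (fun p : E × E × E => p.2.1) := measurable_fst.comp measurable_snd
  rw [Measure.map_map p2 (hf.prodMk (hg.prodMk hk))]
  rfl

theorem pi3_3 (ν : Measure E) {f g k : E → E} (hf : Measurable f) (hg : Measurable g)
    (hk : Measurable k) : (pi3 ν f g k).map (fun p => p.2.2) = ν.map k := by
  unfold pi3
  have p3 : Measurable (fun p : E × E × E => p.2.2) := measurable_snd.comp measurable_snd
  rw [Measure.map_map p3 (hf.prodMk (hg.prodMk hk))]
  rfl

theorem coupling_pi0 (ν : Measure E) (h : Setup e F G) :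
    IsCoupling (mu ν F G R) (pi0 ν F G R) := by
  have mR : Measurable (fun x : E => R x) := meas_R
  have mF := h.mF
  have mG := h.mG
  have mRF : Measurable (fun x : E => R (F x)) := mR.comp mF
  have mRG : Measurable (fun x : E => R (G x)) := mR.comp mG
  have mI : Measurable (fun x : E => x) := measurable_id
  have hid : ν.map (fun x => x) = ν := Measure.map_id
  have p1 : Measurable (fun p : E × E × E => p.1) := measurable_fst
  have p2 : Measurable (fun p : E × E × E => p.2.1) := measurable_fst.comp measurable_snd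
  have p3 : Measurable (fun p : E × E × E => p.2.2) := measurable_snd.comp measurable_snd
  unfold IsCoupling mu pi0
  refine ⟨?_, ?_, ?_⟩
  · simp only [Measure.map_add _ _ p1]
    rw [pi3_1 ν mI mF mG, pi3_1 ν mF mG mI, pi3_1 ν mG mI mF, pi3_1 ν mR mRF mRG,
      pi3_1 ν mRF mRG mR, pi3_1 ν mRG mR mRF, hid]
  · simp only [Measure.map_add _ _ p2]
    rw [pi3_2 ν mI mF mG, pi3_2 ν mF mG mI, pi3_2 ν mG mI mF, pi3_2 ν mR mRF mRG,
      pi3_2 ν mRF mRG mR, pi3_2 ν mRG mR mRF, hid]
    abel
  · simp only [Measure.map_add _ _ p3]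
    rw [pi3_3 ν mI mF mG, pi3_3 ν mF mG mI, pi3_3 ν mG mI mF, pi3_3 ν mR mRF mRG,
      pi3_3 ν mRF mRG mR, pi3_3 ν mRG mR mRF, hid]
    abel

theorem cost_pi3 (ν : Measure E) {f g k : E → E} (hf : Measurable f) (hg : Measurable g)
    (hk : Measurable k) : planCost (pi3 ν f g k) = ∫⁻ x, coulombCost (f x) (g x) (k x) ∂ν := by
  unfold planCost pi3
  rw [lintegral_map meas_cost (hf.prodMk (hg.prodMk hk))]

theorem planCost_add (π₁ π₂ : Measure (E × E × E)) :
    planCost (π₁ + π₂) = planCost π₁ + planCost π₂ := by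
  unfold planCost
  exact lintegral_add_measure _ _ _

theorem coulomb_rot (x y z : E) : coulombCost y z x = coulombCost x y z := by
  unfold coulombCost
  rw [edist_comm y x, edist_comm z x]
  ring

theorem cost_pi0 (ν : Measure E) (h : Setup e F G) :
    planCost (pi0 ν F G R) = 6 * ∫⁻ x, coulombCost x (F x) (G x) ∂ν := by
  have mR : Measurable (fun x : E => R x) := meas_R
  have mF := h.mF
  have mG := h.mG
  have mRF : Measurable (fun x : E => R (F x)) := mR.comp mF
  have mRG : Measurable (fun x : E => R (G x)) := mR.comp mG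
  have mI : Measurable (fun x : E => x) := measurable_id
  unfold pi0
  simp only [planCost_add]
  rw [cost_pi3 ν mI mF mG, cost_pi3 ν mF mG mI, cost_pi3 ν mG mI mF, cost_pi3 ν mR mRF mRG,
      cost_pi3 ν mRF mRG mR, cost_pi3 ν mRG mR mRF]
  have e1 : ∀ x, coulombCost (F x) (G x) x = coulombCost x (F x) (G x) := fun x =>
    coulomb_rot _ _ _
  have e2 : ∀ x, coulombCost (G x) x (F x) = coulombCost x (F x) (G x) := fun x => by
    rw [coulomb_rot (F x), coulomb_rot x]
  have e3 : ∀ x, coulombCost (R x) (R (F x)) (R (G x)) = coulombCost x (F x) (G x) := fun x =>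
    cost_R _ _ _
  have e4 : ∀ x, coulombCost (R (F x)) (R (G x)) (R x) = coulombCost x (F x) (G x) := fun x => by
    rw [cost_R]; exact e1 x
  have e5 : ∀ x, coulombCost (R (G x)) (R x) (R (F x)) = coulombCost x (F x) (G x) := fun x => by
    rw [cost_R]; exact e2 x
  simp only [e1, e2, e3, e4, e5]
  ring

theorem ae_A0 {ν : Measure E} (hb : Base ν R) : ∀ᵐ x ∂ν, x ∈ A0 E := by
  rw [ae_iff]
  exact hb.supp

theorem int_Ue {ν : Measure E} (hb : Base ν R) (h : Setup e F G)
    (hR : inner ℝ (R e) e = 0) :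
    ∫⁻ x, Ue e F G R x ∂(mu ν F G R) = 2 * ∫⁻ x, coulombCost x (F x) (G x) ∂ν := by
  have mR : Measurable (fun x : E => R x) := meas_R
  have mF := h.mF
  have mG := h.mG
  have mRF : Measurable (fun x : E => R (F x)) := mR.comp mF
  have mRG : Measurable (fun x : E => R (G x)) := mR.comp mG
  have mU : Measurable (Ue e F G R) := meas_Ue h
  have hae := ae_A0 hb
  have c1 : ∫⁻ x, coulombCost x (F x) (G x) ∂ν = ∫⁻ x, Ue e F G R x ∂ν +
      ∫⁻ x, Ue e F G R (F x) ∂ν + ∫⁻ x, Ue e F G R (G x) ∂ν := by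
    have mUF : Measurable (fun x => Ue e F G R x + Ue e F G R (F x)) := mU.add (mU.comp mF)
    rw [← lintegral_add_left mU, ← lintegral_add_left mUF]
    apply lintegral_congr_ae
    filter_upwards [hae] with x hx
    exact cost_eq h hR hx
  have c2 : ∫⁻ x, Ue e F G R (R x) ∂ν = ∫⁻ x, Ue e F G R x ∂ν := by
    apply lintegral_congr_ae
    filter_upwards [hae] with x hx
    exact UeR_0 h hR hx
  have c3 : ∫⁻ x, Ue e F G R (R (F x)) ∂ν = ∫⁻ x, Ue e F G R (F x) ∂ν := by
    apply lintegral_congr_ae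
    filter_upwards [hae] with x hx
    exact UeR_F h hR hx
  have c4 : ∫⁻ x, Ue e F G R (R (G x)) ∂ν = ∫⁻ x, Ue e F G R (G x) ∂ν := by
    apply lintegral_congr_ae
    filter_upwards [hae] with x hx
    exact UeR_G h hR hx
  unfold mu
  simp only [lintegral_add_measure]
  rw [lintegral_map mU mF, lintegral_map mU mG, lintegral_map mU mR, lintegral_map mU mRF,
    lintegral_map mU mRG, c1, c2, c3, c4]
  ring

theorem measure_conull {ν : Measure E} (hb : Base ν R) (A : Set E) : ν A = ν (A ∩ A0 E) := by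
  apply le_antisymm
  · calc ν A ≤ ν ((A ∩ A0 E) ∪ (A0 E)ᶜ) := by
          apply measure_mono
          intro x hx
          by_cases h : x ∈ A0 E
          · exact Or.inl ⟨hx, h⟩
          · exact Or.inr h
      _ ≤ ν (A ∩ A0 E) + ν (A0 E)ᶜ := measure_union_le _ _
      _ = ν (A ∩ A0 E) := by rw [hb.supp, add_zero]
  · exact measure_mono inter_subset_left

theorem piece_zero {ν : Measure E} (hb : Base ν R) (h : Setup e F G)
    (hR : inner ℝ (R e) e = 0) {f : E → E} {i j : Fin 5} (hf : ∀ x ∈ A0 E, f x ∈ Cl F G R i)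
    {Q : Set E} (hQ : Q ⊆ Cl F G R j) (hij : i ≠ j) : ν (f ⁻¹' Q) = 0 := by
  rw [measure_conull hb]
  have : f ⁻¹' Q ∩ A0 E = ∅ := by
    ext x
    simp only [mem_inter_iff, mem_preimage, mem_empty_iff_false, iff_false, not_and]
    intro hx hx0
    exact hij (cl_disjoint h hR (hf x hx0) (hQ hx))
  rw [this, measure_empty]

theorem piece_one {ν : Measure E} (hb : Base ν R) {f : E → E}
    (hf : InjOn f (A0 E)) {P : Set E} (hP : P ⊆ A0 E) : ν (f ⁻¹' (f '' P)) = ν P := by
  rw [measure_conull hb]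
  congr 1
  ext x
  constructor
  · rintro ⟨⟨y, hy, hxy⟩, hx⟩
    rw [← hf (hP hy) hx hxy]; exact hy
  · intro hx
    exact ⟨⟨x, hx, rfl⟩, hP hx⟩

theorem mu_apply {ν : Measure E} (h : Setup e F G) {Q : Set E} (hQ : MeasurableSet Q) :
    mu ν F G R Q = (ν Q + ν (F ⁻¹' Q) + ν (G ⁻¹' Q)) +
      (ν ((fun x => R x) ⁻¹' Q) + ν ((fun x => R (F x)) ⁻¹' Q) +
        ν ((fun x => R (G x)) ⁻¹' Q)) := by
  have mR : Measurable (fun x : E => R x) := meas_R
  have mF := h.mF
  have mG := h.mG
  have mRF : Measurable (fun x : E => R (F x)) := mR.comp mF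
  have mRG : Measurable (fun x : E => R (G x)) := mR.comp mG
  unfold mu
  simp only [Measure.add_apply]
  rw [Measure.map_apply mF hQ, Measure.map_apply mG hQ, Measure.map_apply mR hQ,
    Measure.map_apply mRF hQ, Measure.map_apply mRG hQ]

theorem m0 : ∀ x ∈ A0 E, (fun x : E => x) x ∈ Cl F G R 0 := fun _ hx => hx

theorem m1 : ∀ x ∈ A0 E, F x ∈ Cl F G R 1 := fun x hx => ⟨x, hx, rfl⟩

theorem m2 : ∀ x ∈ A0 E, G x ∈ Cl F G R 2 := fun x hx => ⟨x, hx, rfl⟩

theorem m3 : ∀ x ∈ A0 E, R (F x) ∈ Cl F G R 3 := fun x hx => ⟨F x, ⟨x, hx, rfl⟩, rfl⟩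

theorem m4 : ∀ x ∈ A0 E, R (G x) ∈ Cl F G R 4 := fun x hx => ⟨G x, ⟨x, hx, rfl⟩, rfl⟩

theorem mR0 : ∀ x ∈ A0 E, R x ∈ Cl F G R 0 := by
  intro x hx
  have : R x ∈ A0 E := by
    rw [mem_A0] at *
    rw [R.norm_map]; exact hx
  exact this

theorem meas_imF (h : Setup e F G) {P : Set E} (hP : P ⊆ A0 E) (hm : MeasurableSet P) :
    MeasurableSet (F '' P) :=
  hm.image_of_continuousOn_injOn (h.contF.mono hP) (h.injF.mono hP)

theorem meas_imG (h : Setup e F G) {P : Set E} (hP : P ⊆ A0 E) (hm : MeasurableSet P) :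
    MeasurableSet (G '' P) :=
  hm.image_of_continuousOn_injOn (h.contG.mono hP) (h.injG.mono hP)

theorem mu_imG {ν : Measure E} (hb : Base ν R) (h : Setup e F G)
    (hR : inner ℝ (R e) e = 0) {P : Set E} (hP : P ⊆ A0 E) (hm : MeasurableSet P) :
    mu ν F G R (G '' P) = ν P := by
  have hsub : G '' P ⊆ Cl F G R 2 := image_mono hP
  have z0 := piece_zero hb h hR m0 hsub (by decide)
  have z1 := piece_zero hb h hR m1 hsub (by decide)
  have z2 := piece_one hb h.injG hP
  have z3 := piece_zero hb h hR mR0 hsub (by decide)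
  have z4 := piece_zero hb h hR m3 hsub (by decide)
  have z5 := piece_zero hb h hR m4 hsub (by decide)
  rw [mu_apply h (meas_imG h hP hm), z1, z2, z3, z4, z5]
  have : ν (G '' P) = 0 := z0
  rw [this]
  simp

theorem mu_imF {ν : Measure E} (hb : Base ν R) (h : Setup e F G)
    (hR : inner ℝ (R e) e = 0) {P : Set E} (hP : P ⊆ A0 E) (hm : MeasurableSet P) :
    mu ν F G R (F '' P) = ν P := by
  have hsub : F '' P ⊆ Cl F G R 1 := image_mono hP
  have z0 := piece_zero hb h hR m0 hsub (by decide)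
  have z1 := piece_one hb h.injF hP
  have z2 := piece_zero hb h hR m2 hsub (by decide)
  have z3 := piece_zero hb h hR mR0 hsub (by decide)
  have z4 := piece_zero hb h hR m3 hsub (by decide)
  have z5 := piece_zero hb h hR m4 hsub (by decide)
  rw [mu_apply h (meas_imF h hP hm), z1, z2, z3, z4, z5]
  have : ν (F '' P) = 0 := z0
  rw [this]
  simp

theorem mu_P {ν : Measure E} (hb : Base ν R) (h : Setup e F G)
    (hR : inner ℝ (R e) e = 0) {P : Set E} (hP : P ⊆ A0 E) (hm : MeasurableSet P) :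
    mu ν F G R P = 2 * ν P := by
  have hsub : P ⊆ Cl F G R 0 := hP
  have z1 := piece_zero hb h hR m1 hsub (by decide)
  have z2 := piece_zero hb h hR m2 hsub (by decide)
  have z4 := piece_zero hb h hR m3 hsub (by decide)
  have z5 := piece_zero hb h hR m4 hsub (by decide)
  have z3 : ν ((fun x => R x) ⁻¹' P) = ν P := by
    rw [← Measure.map_apply meas_R hm, hb.inv]
  rw [mu_apply h hm, z1, z2, z3, z4, z5]
  simp only [add_zero]
  ring

theorem star (h : Setup e F G) (hR : inner ℝ (R e) e = 0) {i j k : Fin 5} {p q r : E}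
    (hp : p ∈ Cl F G R i) (hq : q ∈ Cl F G R j) (hr : r ∈ Cl F G R k)
    (hc : Conf F G p q r ∨ IsPerm 0 3 4 i j k) {P : Set E} (hP : P ⊆ A0 E) :
    (G '' P).indicator (1 : E → ℝ≥0∞) q + (G '' P).indicator (1 : E → ℝ≥0∞) r =
    (F '' P).indicator (1 : E → ℝ≥0∞) p +
      (P.indicator (1 : E → ℝ≥0∞) p) * ((F '' A0 E ∪ G '' A0 E).indicator (1 : E → ℝ≥0∞) q) := by
  have sG : G '' P ⊆ Cl F G R 2 := image_mono hP
  have sF : F '' P ⊆ Cl F G R 1 := image_mono hP
  have s0 : P ⊆ Cl F G R 0 := hP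
  have nG : ∀ {x : E} {l : Fin 5}, x ∈ Cl F G R l → l ≠ 2 → x ∉ G '' P :=
    fun hx hl hx2 => hl (cl_disjoint h hR hx (sG hx2))
  have nF : ∀ {x : E} {l : Fin 5}, x ∈ Cl F G R l → l ≠ 1 → x ∉ F '' P :=
    fun hx hl hx2 => hl (cl_disjoint h hR hx (sF hx2))
  have n0 : ∀ {x : E} {l : Fin 5}, x ∈ Cl F G R l → l ≠ 0 → x ∉ P :=
    fun hx hl hx2 => hl (cl_disjoint h hR hx (s0 hx2))
  have nFG : ∀ {x : E} {l : Fin 5}, x ∈ Cl F G R l → l ≠ 1 → l ≠ 2 →
      x ∉ F '' A0 E ∪ G '' A0 E := by
    intro x l hx h1 h2 hx2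
    rcases hx2 with hx2 | hx2
    · exact h1 (cl_disjoint (j := 1) h hR hx hx2)
    · exact h2 (cl_disjoint (j := 2) h hR hx hx2)
  rcases hc with ⟨s, hs, hc⟩ | hc
  · have hs0 : s ∈ Cl F G R 0 := hs
    have hs1 : F s ∈ Cl F G R 1 := ⟨s, hs, rfl⟩
    have hs2 : G s ∈ Cl F G R 2 := ⟨s, hs, rfl⟩
    have a1 : s ∉ G '' P := nG hs0 (by decide)
    have a2 : F s ∉ G '' P := nG hs1 (by decide)
    have a3 : s ∉ F '' P := nF hs0 (by decide)
    have a4 : G s ∉ F '' P := nF hs2 (by decide)
    have a5 : F s ∉ P := n0 hs1 (by decide)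
    have a6 : G s ∉ P := n0 hs2 (by decide)
    have a7 : F s ∈ F '' A0 E ∪ G '' A0 E := Or.inl hs1
    have a8 : G s ∈ F '' A0 E ∪ G '' A0 E := Or.inr hs2
    have a9 : G s ∈ G '' P ↔ s ∈ P := by
      constructor
      · rintro ⟨y, hy, hxy⟩
        rw [← h.injG (hP hy) hs hxy]; exact hy
      · intro hx; exact ⟨s, hx, rfl⟩
    have a10 : F s ∈ F '' P ↔ s ∈ P := by
      constructor
      · rintro ⟨y, hy, hxy⟩
        rw [← h.injF (hP hy) hs hxy]; exact hy
      · intro hx; exact ⟨s, hx, rfl⟩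
    by_cases hsP : s ∈ P
    · have b1 : G s ∈ G '' P := a9.mpr hsP
      have b2 : F s ∈ F '' P := a10.mpr hsP
      rcases hc with ⟨rfl, rfl, rfl⟩ | ⟨rfl, rfl, rfl⟩ | ⟨rfl, rfl, rfl⟩ | ⟨rfl, rfl, rfl⟩ |
        ⟨rfl, rfl, rfl⟩ | ⟨rfl, rfl, rfl⟩
      · rw [indicator_of_notMem a2, indicator_of_mem b1, indicator_of_notMem a3,
          indicator_of_mem hsP, indicator_of_mem a7]; simp
      · rw [indicator_of_notMem a2, indicator_of_mem b1, indicator_of_notMem a3,
          indicator_of_mem hsP, indicator_of_mem a8]; simp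
      · rw [indicator_of_notMem a1, indicator_of_mem b1, indicator_of_mem b2,
          indicator_of_notMem a5]; simp
      · rw [indicator_of_notMem a1, indicator_of_mem b1, indicator_of_mem b2,
          indicator_of_notMem a5]; simp
      · rw [indicator_of_notMem a1, indicator_of_notMem a2, indicator_of_notMem a4,
          indicator_of_notMem a6]; simp
      · rw [indicator_of_notMem a1, indicator_of_notMem a2, indicator_of_notMem a4,
          indicator_of_notMem a6]; simp
    · have b1 : G s ∉ G '' P := fun hh => hsP (a9.mp hh)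
      have b2 : F s ∉ F '' P := fun hh => hsP (a10.mp hh)
      rcases hc with ⟨rfl, rfl, rfl⟩ | ⟨rfl, rfl, rfl⟩ | ⟨rfl, rfl, rfl⟩ | ⟨rfl, rfl, rfl⟩ |
        ⟨rfl, rfl, rfl⟩ | ⟨rfl, rfl, rfl⟩
      · rw [indicator_of_notMem a2, indicator_of_notMem b1, indicator_of_notMem a3,
          indicator_of_notMem hsP]; simp
      · rw [indicator_of_notMem a2, indicator_of_notMem b1, indicator_of_notMem a3,
          indicator_of_notMem hsP]; simp
      · rw [indicator_of_notMem a1, indicator_of_notMem b1, indicator_of_notMem b2,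
          indicator_of_notMem a5]; simp
      · rw [indicator_of_notMem a1, indicator_of_notMem b1, indicator_of_notMem b2,
          indicator_of_notMem a5]; simp
      · rw [indicator_of_notMem a1, indicator_of_notMem a2, indicator_of_notMem a4,
          indicator_of_notMem a6]; simp
      · rw [indicator_of_notMem a1, indicator_of_notMem a2, indicator_of_notMem a4,
          indicator_of_notMem a6]; simp
  · rcases hc with ⟨rfl, rfl, rfl⟩ | ⟨rfl, rfl, rfl⟩ | ⟨rfl, rfl, rfl⟩ | ⟨rfl, rfl, rfl⟩ |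
      ⟨rfl, rfl, rfl⟩ | ⟨rfl, rfl, rfl⟩
    · rw [indicator_of_notMem (nG hq (by decide)), indicator_of_notMem (nG hr (by decide)),
        indicator_of_notMem (nF hp (by decide)), indicator_of_notMem (nFG hq (by decide)
        (by decide))]; simp
    · rw [indicator_of_notMem (nG hq (by decide)), indicator_of_notMem (nG hr (by decide)),
        indicator_of_notMem (nF hp (by decide)), indicator_of_notMem (nFG hq (by decide)
        (by decide))]; simp
    · rw [indicator_of_notMem (nG hq (by decide)), indicator_of_notMem (nG hr (by decide)),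
        indicator_of_notMem (nF hp (by decide)), indicator_of_notMem (n0 hp (by decide))]; simp
    · rw [indicator_of_notMem (nG hq (by decide)), indicator_of_notMem (nG hr (by decide)),
        indicator_of_notMem (nF hp (by decide)), indicator_of_notMem (n0 hp (by decide))]; simp
    · rw [indicator_of_notMem (nG hq (by decide)), indicator_of_notMem (nG hr (by decide)),
        indicator_of_notMem (nF hp (by decide)), indicator_of_notMem (n0 hp (by decide))]; simp
    · rw [indicator_of_notMem (nG hq (by decide)), indicator_of_notMem (nG hr (by decide)),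
        indicator_of_notMem (nF hp (by decide)), indicator_of_notMem (n0 hp (by decide))]; simp

end Vale.Agent.P121
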