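import Mathlib
import Vale.Agent.P121.Main

namespace Vale.Agent.P121

set_option linter.unusedSectionVars false

open Metric MeasureTheory Set
open scoped ENNReal

variable {E : Type*} [NormedAddCommGroup E] [InnerProductSpace ℝ E] [FiniteDimensional ℝ E]
  [MeasurableSpace E] [BorelSpace E]

variable {e : E} {F G : E → E} {R : E ≃ₗᵢ[ℝ] E}

theorem mu_univ {ν : Measure E} (hb : Base ν R) (h : Setup e F G) :
    mu ν F G R univ = 1 := by
  rw [mu_apply h MeasurableSet.univ]
  simp only [preimage_univ, hb.mass]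
  have : (6⁻¹ : ℝ≥0∞) + 6⁻¹ + 6⁻¹ + (6⁻¹ + 6⁻¹ + 6⁻¹) = 6 * 6⁻¹ := by ring
  rw [this]
  exact ENNReal.mul_inv_cancel (by norm_num) (by norm_num)

theorem measS (h : Setup e F G) : MeasurableSet {x : E | ∃ i, x ∈ Cl F G R i} := by
  have : {x : E | ∃ i, x ∈ Cl F G R i} = ⋃ i, Cl F G R i := by
    ext x; simp
  rw [this]
  exact MeasurableSet.iUnion (fun i => measCl h i)

theorem ae_cl {ν : Measure E} (hb : Base ν R) (h : Setup e F G) :
    ∀ᵐ x ∂(mu ν F G R), ∃ i, x ∈ Cl F G R i := by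
  rw [ae_iff]
  have hm : MeasurableSet {x : E | ¬ ∃ i, x ∈ Cl F G R i} := (measS h).compl
  rw [mu_apply h hm]
  have key : ∀ (f : E → E) (i : Fin 5), (∀ x ∈ A0 E, f x ∈ Cl F G R i) →
      ν (f ⁻¹' {x : E | ¬ ∃ i, x ∈ Cl F G R i}) = 0 := by
    intro f i hf
    rw [measure_conull hb]
    have : f ⁻¹' {x : E | ¬ ∃ i, x ∈ Cl F G R i} ∩ A0 E = ∅ := by
      ext x
      simp only [mem_inter_iff, mem_preimage, mem_ofPred_eq, mem_empty_iff_false, iff_false,
        not_and]
      intro hx hx0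
      exact hx ⟨i, hf x hx0⟩
    rw [this, measure_empty]
  have k0 := key (fun x => x) 0 m0
  have k1 := key F 1 m1
  have k2 := key G 2 m2
  have k3 := key (fun x => R x) 0 mR0
  have k4 := key (fun x => R (F x)) 3 m3
  have k5 := key (fun x => R (G x)) 4 m4
  rw [k1, k2, k3, k4, k5]
  have k0' : ν {x : E | ¬ ∃ i, x ∈ Cl F G R i} = 0 := k0
  rw [k0']
  simp

theorem int_Ue_ne_top {ν : Measure E} (hb : Base ν R) (h : Setup e F G)
    (hR : inner ℝ (R e) e = 0) : ∫⁻ x, Ue e F G R x ∂(mu ν F G R) ≠ ⊤ := by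
  have hle : ∫⁻ x, Ue e F G R x ∂(mu ν F G R) ≤ ∫⁻ _, 2 ∂(mu ν F G R) := by
    apply lintegral_mono_ae
    filter_upwards [ae_cl hb h] with x hx
    obtain ⟨i, hi⟩ := hx
    have hU := (UU_bd h hR hi).2
    have : (Um i : ℝ) / 100 ≤ 2 := by
      fin_cases i <;> simp [Um] <;> norm_num
    unfold Ue
    calc ENNReal.ofReal (UU e F G R x) ≤ ENNReal.ofReal 2 :=
          ENNReal.ofReal_le_ofReal (by linarith)
      _ = 2 := by simp
  rw [lintegral_const, mu_univ hb h] at hle
  exact ne_top_of_le_ne_top (by norm_num) hle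

theorem kant_le {ν : Measure E} (hb : Base ν R) (h : Setup e F G)
    (hR : inner ℝ (R e) e = 0) :
    kantorovichValue (mu ν F G R) ≤ 3 * ∫⁻ x, Ue e F G R x ∂(mu ν F G R) := by
  unfold kantorovichValue
  refine iInf₂_le_of_le (pi0 ν F G R) (coupling_pi0 ν h) ?_
  rw [cost_pi0 ν h, int_Ue hb h hR, ← mul_assoc]
  norm_num

theorem no_monge {ν : Measure E} (hb : Base ν R) (h : Setup e F G)
    (hR : inner ℝ (R e) e = 0) (T₂ T₃ : E → E) (t2 : Measurable T₂) (t3 : Measurable T₃)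
    (p2 : (mu ν F G R).map T₂ = mu ν F G R) (p3 : (mu ν F G R).map T₃ = mu ν F G R)
    (hcost : ∫⁻ x, coulombCost x (T₂ x) (T₃ x) ∂(mu ν F G R) ≤ kantorovichValue (mu ν F G R)) :
    False := by
  have mU : Measurable (Ue e F G R) := meas_Ue h
  have a1 := ae_cl hb h
  have q2 : Filter.Tendsto T₂ (ae (mu ν F G R)) (ae (mu ν F G R)) := by
    have := Measure.tendsto_ae_map (μ := mu ν F G R) t2.aemeasurable
    rwa [p2] at this
  have q3 : Filter.Tendsto T₃ (ae (mu ν F G R)) (ae (mu ν F G R)) := by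
    have := Measure.tendsto_ae_map (μ := mu ν F G R) t3.aemeasurable
    rwa [p3] at this
  have a2 : ∀ᵐ x ∂(mu ν F G R), ∃ i, T₂ x ∈ Cl F G R i := q2.eventually a1
  have a3 : ∀ᵐ x ∂(mu ν F G R), ∃ i, T₃ x ∈ Cl F G R i := q3.eventually a1
  have hle : (fun x => Ue e F G R x + Ue e F G R (T₂ x) + Ue e F G R (T₃ x))
      ≤ᵐ[mu ν F G R] (fun x => coulombCost x (T₂ x) (T₃ x)) := by
    filter_upwards [a1, a2, a3] with x ⟨i, hi⟩ ⟨j, hj⟩ ⟨k, hk⟩
    exact (classify h hR hi hj hk).1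
  have i2 : ∫⁻ x, Ue e F G R (T₂ x) ∂(mu ν F G R) = ∫⁻ x, Ue e F G R x ∂(mu ν F G R) := by
    rw [← lintegral_map mU t2, p2]
  have i3 : ∫⁻ x, Ue e F G R (T₃ x) ∂(mu ν F G R) = ∫⁻ x, Ue e F G R x ∂(mu ν F G R) := by
    rw [← lintegral_map mU t3, p3]
  have mU2 : Measurable (fun x => Ue e F G R x + Ue e F G R (T₂ x)) := mU.add (mU.comp t2)
  have hint : ∫⁻ x, Ue e F G R x + Ue e F G R (T₂ x) + Ue e F G R (T₃ x) ∂(mu ν F G R) =
      3 * ∫⁻ x, Ue e F G R x ∂(mu ν F G R) := by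
    rw [lintegral_add_left mU2, lintegral_add_left mU, i2, i3]
    ring
  have hfin : ∫⁻ x, Ue e F G R x + Ue e F G R (T₂ x) + Ue e F G R (T₃ x) ∂(mu ν F G R) ≠ ⊤ := by
    rw [hint]
    exact ENNReal.mul_ne_top (by norm_num) (int_Ue_ne_top hb h hR)
  have mcost : Measurable (fun x => coulombCost x (T₂ x) (T₃ x)) := by
    have mtrip : Measurable (fun x : E => (x, T₂ x, T₃ x)) := measurable_id.prodMk (t2.prodMk t3)
    have hcomp := (meas_cost (E := E)).comp mtrip
    exact hcomp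
  have heq := ae_eq_of_ae_le_of_lintegral_le hle hfin mcost.aemeasurable
    (by rw [hint]; exact hcost.trans (kant_le hb h hR))
  have mT2 : ∀ {Q : Set E}, MeasurableSet Q → mu ν F G R (T₂ ⁻¹' Q) = mu ν F G R Q := by
    intro Q hQ
    rw [← Measure.map_apply t2 hQ, p2]
  have mT3 : ∀ {Q : Set E}, MeasurableSet Q → mu ν F G R (T₃ ⁻¹' Q) = mu ν F G R Q := by
    intro Q hQ
    rw [← Measure.map_apply t3 hQ, p3]
  set D : Set E := T₂ ⁻¹' (F '' A0 E ∪ G '' A0 E) with hD
  have mD : MeasurableSet D :=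
    t2 ((compF h).isClosed.measurableSet.union (compG h).isClosed.measurableSet)
  have count : ∀ P : Set E, P ⊆ A0 E → MeasurableSet P → 2 * ν P = ν P + 2 * ν (P ∩ D) := by
    intro P hP hm
    have mGP := meas_imG h hP hm
    have mFP := meas_imF h hP hm
    have hst : (fun x => (G '' P).indicator (1 : E → ℝ≥0∞) (T₂ x) +
        (G '' P).indicator (1 : E → ℝ≥0∞) (T₃ x)) =ᵐ[mu ν F G R]
        (fun x => (F '' P).indicator (1 : E → ℝ≥0∞) x + (P ∩ D).indicator (1 : E → ℝ≥0∞) x) := by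
      filter_upwards [a1, a2, a3, heq] with x ⟨i, hi⟩ ⟨j, hj⟩ ⟨k, hk⟩ hx
      have := star h hR hi hj hk ((classify h hR hi hj hk).2 hx.ge) hP
      rw [this]
      congr 1
      by_cases hxP : x ∈ P
      · by_cases hxD : T₂ x ∈ F '' A0 E ∪ G '' A0 E
        · have : x ∈ P ∩ D := ⟨hxP, hxD⟩
          rw [indicator_of_mem hxP, indicator_of_mem hxD, indicator_of_mem this]
          simp
        · have : x ∉ P ∩ D := fun hh => hxD hh.2
          rw [indicator_of_notMem hxD, indicator_of_notMem this]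
          simp
      · have : x ∉ P ∩ D := fun hh => hxP hh.1
        rw [indicator_of_notMem hxP, indicator_of_notMem this]
        simp
    have hI := lintegral_congr_ae hst
    have c2 : (fun x => (G '' P).indicator (1 : E → ℝ≥0∞) (T₂ x)) =
        (T₂ ⁻¹' (G '' P)).indicator (1 : E → ℝ≥0∞) := by
      funext x
      by_cases hx : T₂ x ∈ G '' P
      · have hx' : x ∈ T₂ ⁻¹' (G '' P) := hx
        rw [indicator_of_mem hx, indicator_of_mem hx']
        rfl
      · have hx' : x ∉ T₂ ⁻¹' (G '' P) := hx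
        rw [indicator_of_notMem hx, indicator_of_notMem hx']
    have c3 : (fun x => (G '' P).indicator (1 : E → ℝ≥0∞) (T₃ x)) =
        (T₃ ⁻¹' (G '' P)).indicator (1 : E → ℝ≥0∞) := by
      funext x
      by_cases hx : T₃ x ∈ G '' P
      · have hx' : x ∈ T₃ ⁻¹' (G '' P) := hx
        rw [indicator_of_mem hx, indicator_of_mem hx']
        rfl
      · have hx' : x ∉ T₃ ⁻¹' (G '' P) := hx
        rw [indicator_of_notMem hx, indicator_of_notMem hx']
    have m1' : Measurable (fun x => (G '' P).indicator (1 : E → ℝ≥0∞) (T₂ x)) :=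
      (measurable_one.indicator mGP).comp t2
    have m2' : Measurable ((F '' P).indicator (1 : E → ℝ≥0∞)) := measurable_one.indicator mFP
    rw [lintegral_add_left m1', lintegral_add_left m2', c2, c3,
      lintegral_indicator_one (t2 mGP), lintegral_indicator_one (t3 mGP),
      lintegral_indicator_one mFP, lintegral_indicator_one (hm.inter mD), mT2 mGP, mT3 mGP,
      mu_imG hb h hR hP hm, mu_imF hb h hR hP hm,
      mu_P hb h hR (inter_subset_left.trans hP) (hm.inter mD)] at hI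
    rw [two_mul]
    exact hI
  have hfinν : ∀ P : Set E, ν P ≠ ⊤ := by
    intro P
    have : ν P ≤ ν univ := measure_mono (subset_univ P)
    rw [hb.mass] at this
    exact ne_top_of_le_ne_top (by norm_num) this
  have hz : ν (A0 E ∩ D) = 0 := by
    have c := count (A0 E ∩ D) inter_subset_left (meas_A0.inter mD)
    have : A0 E ∩ D ∩ D = A0 E ∩ D := by
      rw [inter_assoc, inter_self]
    rw [this] at c
    have hf := hfinν (A0 E ∩ D)
    have c' : 0 + 2 * ν (A0 E ∩ D) = ν (A0 E ∩ D) + 2 * ν (A0 E ∩ D) := by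
      rw [zero_add]; exact c
    have := (ENNReal.add_left_inj (ENNReal.mul_ne_top (by norm_num) hf)).mp c'
    exact this.symm
  have hA := count (A0 E) subset_rfl meas_A0
  rw [hz, mul_zero, add_zero, two_mul] at hA
  have hA' : ν (A0 E) + ν (A0 E) = ν (A0 E) + 0 := by rw [add_zero]; exact hA
  have hA0 := (ENNReal.add_right_inj (hfinν (A0 E))).mp hA'
  have huniv : ν univ = 0 := by
    rw [measure_conull hb, univ_inter, hA0]
  rw [hb.mass] at huniv
  norm_num at huniv

end Vale.Agent.P121
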