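import Mathlib
import Vale.Agent.P121.Final

namespace Vale.Agent.P121

set_option linter.unusedSectionVars false

open Metric MeasureTheory Set Module
open scoped ENNReal NNReal

variable {E : Type*} [NormedAddCommGroup E] [InnerProductSpace ℝ E] [FiniteDimensional ℝ E]
  [MeasurableSpace E] [BorelSpace E]

variable {e : E} {F G : E → E} {R : E ≃ₗᵢ[ℝ] E}

theorem vol_preimage_le {f : E → E} (C : ℝ≥0)
    (hanti : ∀ x ∈ A0 E, ∀ y ∈ A0 E, ‖x - y‖ ≤ C * ‖f x - f y‖) (N : Set E) :
    volume (f ⁻¹' N ∩ A0 E) ≤ (C : ℝ≥0∞) ^ finrank ℝ E * volume N := by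
  classical
  have hinj : InjOn f (A0 E) := by
    intro x hx y hy hxy
    have := hanti x hx y hy
    rw [hxy, sub_self, norm_zero, mul_zero] at this
    exact sub_eq_zero.mp (norm_le_zero_iff.mp this)
  set g : E → E := Function.invFunOn f (A0 E) with hg
  have hgf : ∀ x ∈ A0 E, g (f x) = x := fun x hx => hinj.leftInvOn_invFunOn hx
  have hlip : LipschitzOnWith C g (f '' A0 E) := by
    apply LipschitzOnWith.of_dist_le_mul
    rintro _ ⟨x, hx, rfl⟩ _ ⟨y, hy, rfl⟩
    rw [hgf x hx, hgf y hy, dist_eq_norm, dist_eq_norm]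
    exact hanti x hx y hy
  have hsub : f ⁻¹' N ∩ A0 E ⊆ g '' (N ∩ f '' A0 E) := by
    rintro x ⟨hx, hx0⟩
    exact ⟨f x, ⟨hx, ⟨x, hx0, rfl⟩⟩, hgf x hx0⟩
  have hlip' : LipschitzOnWith C g (N ∩ f '' A0 E) := hlip.mono inter_subset_right
  have hH := hlip'.hausdorffMeasure_image_le (d := (finrank ℝ E : ℝ)) (by positivity)
  have hvol : (volume : Measure E) =
      Measure.addHaarScalarFactor (volume : Measure E) (Measure.hausdorffMeasure (finrank ℝ E)) •
        (Measure.hausdorffMeasure (finrank ℝ E) : Measure E) :=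
    Measure.isAddLeftInvariant_eq_smul _ _
  set c := Measure.addHaarScalarFactor (volume : Measure E)
    (Measure.hausdorffMeasure (finrank ℝ E)) with hc
  have hap : ∀ s : Set E, volume s =
      (c : ℝ≥0∞) * (Measure.hausdorffMeasure (finrank ℝ E) : Measure E) s := by
    intro s
    rw [hvol]
    rfl
  calc volume (f ⁻¹' N ∩ A0 E) ≤ volume (g '' (N ∩ f '' A0 E)) := measure_mono hsub
    _ = (c : ℝ≥0∞) * (Measure.hausdorffMeasure (finrank ℝ E) : Measure E)
          (g '' (N ∩ f '' A0 E)) := hap _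
    _ ≤ (c : ℝ≥0∞) * ((C : ℝ≥0∞) ^ (finrank ℝ E : ℝ) *
          (Measure.hausdorffMeasure (finrank ℝ E) : Measure E) (N ∩ f '' A0 E)) := by
        gcongr
    _ ≤ (c : ℝ≥0∞) * ((C : ℝ≥0∞) ^ (finrank ℝ E : ℝ) *
          (Measure.hausdorffMeasure (finrank ℝ E) : Measure E) N) := by
        gcongr
        exact inter_subset_left
    _ = (C : ℝ≥0∞) ^ finrank ℝ E * volume N := by
        rw [hap N, ENNReal.rpow_natCast]
        ring

noncomputable def nu (E : Type*) [NormedAddCommGroup E] [InnerProductSpace ℝ E]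
    [FiniteDimensional ℝ E] [MeasurableSpace E] [BorelSpace E] : Measure E :=
  (6 * volume (A0 E))⁻¹ • (volume : Measure E).restrict (A0 E)

theorem vol_A0_ne_zero : volume (A0 E) ≠ 0 := by
  have : 0 < rho := by norm_num [rho]
  exact (measure_closedBall_pos volume (0 : E) this).ne'

theorem vol_A0_ne_top : volume (A0 E) ≠ ⊤ :=
  (isCompact_A0 (E := E)).measure_lt_top.ne

theorem base_nu : Base (nu E) R := by
  refine ⟨?_, ?_, ?_⟩
  · unfold nu
    rw [Measure.smul_apply, Measure.restrict_apply meas_A0.compl, compl_inter_self,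
      measure_empty, smul_zero]
  · unfold nu
    rw [Measure.map_smul]
    congr 1
    have h1 : MeasurePreserving (fun x : E => R x) volume volume := R.measurePreserving
    have h2 := h1.restrict_preimage (s := A0 E) meas_A0
    have h3 : (fun x : E => R x) ⁻¹' A0 E = A0 E := by
      ext x
      rw [mem_preimage, mem_A0, mem_A0, R.norm_map]
    rw [h3] at h2
    exact h2.map_eq
  · unfold nu
    rw [Measure.smul_apply, Measure.restrict_apply MeasurableSet.univ, univ_inter, smul_eq_mul,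
      ENNReal.mul_inv (Or.inl (by norm_num)) (Or.inl (by norm_num)), mul_assoc,
      ENNReal.inv_mul_cancel vol_A0_ne_zero vol_A0_ne_top, mul_one]

noncomputable def cst (E : Type*) [NormedAddCommGroup E] [InnerProductSpace ℝ E]
    [FiniteDimensional ℝ E] [MeasurableSpace E] [BorelSpace E] : ℝ≥0∞ :=
  (6 * volume (A0 E))⁻¹ * ((2000 : ℝ≥0) : ℝ≥0∞) ^ finrank ℝ E

theorem cst_ne_top : cst E ≠ ⊤ := by
  unfold cst
  apply ENNReal.mul_ne_top
  · apply ENNReal.inv_ne_top.mpr
    exact mul_ne_zero (by norm_num) vol_A0_ne_zero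
  · exact ENNReal.pow_ne_top ENNReal.coe_ne_top

theorem nu_preimage_le {f : E → E} (hf : Measurable f)
    (hanti : ∀ x ∈ A0 E, ∀ y ∈ A0 E, ‖x - y‖ ≤ 2000 * ‖f x - f y‖) {N : Set E}
    (hN : MeasurableSet N) :
    nu E (f ⁻¹' N) ≤ cst E * volume N := by
  unfold nu cst
  rw [Measure.smul_apply, Measure.restrict_apply (hf hN), smul_eq_mul, mul_assoc]
  gcongr
  exact vol_preimage_le 2000 (by simpa using hanti) N

theorem mu_le (h : Setup e F G) : mu (nu E) F G R ≤ (6 * cst E) • (volume : Measure E) := by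
  rw [Measure.le_iff]
  intro N hN
  have mR : Measurable (fun x : E => R x) := meas_R
  have mF := h.mF
  have mG := h.mG
  have mRF : Measurable (fun x : E => R (F x)) := mR.comp mF
  have mRG : Measurable (fun x : E => R (G x)) := mR.comp mG
  have k0 : nu E ((fun x : E => x) ⁻¹' N) ≤ cst E * volume N :=
    nu_preimage_le (f := fun x : E => x) measurable_id (fun x _ y _ => by
      have := norm_nonneg (x - y)
      show ‖x - y‖ ≤ 2000 * ‖x - y‖
      linarith) hN
  have k1 : nu E (F ⁻¹' N) ≤ cst E * volume N :=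
    nu_preimage_le mF (fun x hx y hy => h.antiF hx hy) hN
  have k2 : nu E (G ⁻¹' N) ≤ cst E * volume N :=
    nu_preimage_le mG (fun x hx y hy => h.antiG hx hy) hN
  have k3 : nu E ((fun x : E => R x) ⁻¹' N) ≤ cst E * volume N :=
    nu_preimage_le mR (fun x _ y _ => by
      rw [← map_sub, R.norm_map]
      have := norm_nonneg (x - y); linarith) hN
  have k4 : nu E ((fun x : E => R (F x)) ⁻¹' N) ≤ cst E * volume N :=
    nu_preimage_le mRF (fun x hx y hy => by
      rw [← map_sub, R.norm_map]; exact h.antiF hx hy) hN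
  have k5 : nu E ((fun x : E => R (G x)) ⁻¹' N) ≤ cst E * volume N :=
    nu_preimage_le mRG (fun x hx y hy => by
      rw [← map_sub, R.norm_map]; exact h.antiG hx hy) hN
  have k0' : nu E N ≤ cst E * volume N := k0
  rw [mu_apply h hN, Measure.smul_apply, smul_eq_mul]
  calc _ ≤ (cst E * volume N + cst E * volume N + cst E * volume N) +
        (cst E * volume N + cst E * volume N + cst E * volume N) := by gcongr
    _ = 6 * cst E * volume N := by ring

theorem mu_compact (h : Setup e F G) : IsCompact (⋃ i, Cl F G R i) ∧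
    mu (nu E) F G R (⋃ i, Cl F G R i)ᶜ = 0 := by
  constructor
  · exact isCompact_iUnion (fun i => compCl h i)
  · have := ae_cl (R := R) base_nu h
    rw [ae_iff] at this
    convert this using 2
    ext x
    simp

theorem exists_measure (R : E ≃ₗᵢ[ℝ] E) (e : E) (he : ‖e‖ = 1) (hR : inner ℝ (R e) e = 0) :
    ∃ μ : Measure E, IsProbabilityMeasure μ ∧ (∃ C : ℝ≥0, μ ≤ C • (volume : Measure E)) ∧
      (∃ K : Set E, IsCompact K ∧ μ Kᶜ = 0) ∧ kantorovichValue μ < ⊤ ∧
      ¬ ∃ π : Measure (E × E × E), IsMongePlan μ π ∧ planCost π = kantorovichValue μ := by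
  obtain ⟨F, G, h⟩ := exists_setup e he
  have hb : Base (nu E) R := base_nu
  refine ⟨mu (nu E) F G R, ⟨mu_univ hb h⟩, ?_, ?_, ?_, ?_⟩
  · refine ⟨(6 * cst E).toNNReal, ?_⟩
    have h6 : (6 * cst E) ≠ ⊤ := ENNReal.mul_ne_top (by norm_num) cst_ne_top
    have h7 := mu_le (R := R) h
    rw [← ENNReal.coe_toNNReal h6] at h7
    exact h7
  · exact ⟨_, mu_compact h⟩
  · refine lt_of_le_of_lt (kant_le hb h hR) ?_
    exact ENNReal.mul_lt_top (by norm_num) (int_Ue_ne_top hb h hR).lt_top
  · rintro ⟨π, ⟨T₂, T₃, t2, t3, p2, p3, rfl⟩, hcost⟩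
    apply no_monge hb h hR T₂ T₃ t2 t3 p2 p3
    rw [← hcost]
    unfold planCost
    have mtrip : Measurable (fun x : E => (x, T₂ x, T₃ x)) := measurable_id.prodMk (t2.prodMk t3)
    rw [lintegral_map (meas_cost (E := E)) mtrip]

end Vale.Agent.P121
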